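import Vale.Agent.P032.H484.Tile
import Vale.Agent.P032.H169.Rod2

/-!
# P032: chains of rods with constant orientation are odd polygons

`Rods.stay_odd` : a chain of rods with constant orientation and total angle more than `π`, whose
moving ends of the same parity are at distance at most one, has an odd period `n`:
`V (i + n) = V i` and `ρ (i + n) = ρ i ± π` for `i ≥ 1`.
`Rods.stay_poly` : with the colour `g` on all arcs it is the polygon of `H484.Poly`; its tile is
`{x | ∀ i ≥ 1, dist x (V i) ≤ 1}`.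
-/

open Set Filter Topology Metric

noncomputable section

namespace Vale.Agent.P032.H484

open Vale.Agent.P032.Six

variable {V : ℕ → ℂ} {ρ : ℕ → ℝ}

/-- opposite rods: `E' = O`, `O' = E` -/
theorem opp {E O E' O' c : ℂ} (hc : ‖c‖ = 1) (h1 : O = E + c) (h2 : O' = E' - c)
    (hE : dist E' E ≤ 1) (hO : dist O' O ≤ 1) : O' = E ∧ E' = O := by
  have h3 : O' - O = -c := by
    refine eq_neg_of_le169 hc (by rw [← dist_eq_norm]; exact hO) ?_
    rw [show O' - O + 2 * c = E' - E by rw [h1, h2]; ring, ← dist_eq_norm]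
    exact hE
  constructor
  · rw [h1] at h3; linear_combination h3
  · rw [h2] at h3; rw [h1] at h3 ⊢; linear_combination h3

section

variable (h : Rods V ρ)
  (hd : ∀ i j, (Even i ↔ Even j) → ∀ θ ∈ uIcc (ρ i) (ρ (i + 1)), ∀ θ' ∈ uIcc (ρ j) (ρ (j + 1)),
    dist (arcPt V i θ) (arcPt V j θ') ≤ 1)

include h hd

/-- two rods with opposite directions -/
theorem opp_rods {i j : ℕ} {θ θ' : ℝ} (hθ : θ ∈ uIcc (ρ i) (ρ (i + 1)))
    (hθ' : θ' ∈ uIcc (ρ j) (ρ (j + 1))) (hc : cis θ' = -cis θ) :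
    ((Even i ↔ Even j) → V (j + 1) = arcPt V i θ) ∧
      (¬ (Even i ↔ Even j) → V (j + 1) = V (i + 1)) := by
  have hV : ∀ q, arcPt V q (ρ q) = V q := h.arc_left
  have hpp : ∀ i j, (Even i ↔ Even j) → ∀ θ ∈ uIcc (ρ i) (ρ (i + 1)), dist (arcPt V i θ) (V j) ≤ 1 := by
    intro i j hij θ hθ
    rw [← hV j]
    exact hd i j hij θ hθ _ left_mem_uIcc
  have hpv : ∀ i j, (Even i ↔ Even j) → dist (V i) (V j) ≤ 1 := by
    intro i j hij
    rw [← hV i]
    exact hpp i j hij _ left_mem_uIcc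
  have hn := norm_cis θ
  have earc : ∀ q, Even q → ∀ t, arcPt V q t = V (q + 1) - cis t := by
    intro q hq t
    rw [arcPt, Odd.neg_one_pow hq.add_one]; ring
  have oarc : ∀ q, ¬ Even q → ∀ t, arcPt V q t = V (q + 1) + cis t := by
    intro q hq t
    rw [arcPt, Even.neg_one_pow (Nat.not_even_iff_odd.1 hq).add_one]; ring
  by_cases hi : Even i <;> by_cases hj : Even j
  · refine ⟨fun _ => ?_, fun hne => absurd (iff_of_true hi hj) hne⟩
    refine (opp (E := arcPt V i θ) (O := V (i + 1)) (E' := arcPt V j θ') (O' := V (j + 1)) hn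
      (by rw [earc i hi]; ring) (by rw [earc j hj, hc]; ring)
      (hd _ _ (iff_of_true hj hi) _ hθ' _ hθ) (hpv _ _ ?_)).1
    rw [Nat.even_add_one, Nat.even_add_one]
    simp [hi, hj]
  · refine ⟨fun he => absurd (he.1 hi) hj, fun _ => ?_⟩
    refine (opp (E := arcPt V i θ) (O := V (i + 1)) (E' := V (j + 1)) (O' := arcPt V j θ') hn
      (by rw [earc i hi]; ring) (by rw [oarc j hj, hc]; ring) ?_ ?_).2
    · rw [dist_comm]
      refine hpp _ _ ?_ _ hθ
      rw [Nat.even_add_one]; simp [hi, hj]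
    · refine hpp _ _ ?_ _ hθ'
      rw [Nat.even_add_one]; simp [hi, hj]
  · refine ⟨fun he => absurd (he.2 hj) hi, fun _ => ?_⟩
    refine (opp (E := V (i + 1)) (O := arcPt V i θ) (E' := arcPt V j θ') (O' := V (j + 1)) hn
      (by rw [oarc i hi]) (by rw [earc j hj, hc]; ring) ?_ ?_).1
    · refine hpp _ _ ?_ _ hθ'
      rw [Nat.even_add_one]; simp [hi, hj]
    · rw [dist_comm]
      refine hpp _ _ ?_ _ hθ
      rw [Nat.even_add_one]; simp [hi, hj]
  · refine ⟨fun _ => ?_, fun hne => absurd (iff_of_false hi hj) hne⟩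
    refine (opp (E := V (i + 1)) (O := arcPt V i θ) (E' := V (j + 1)) (O' := arcPt V j θ') hn
      (by rw [oarc i hi]) (by rw [oarc j hj, hc]; ring) (hpv _ _ ?_)
      (hd _ _ (iff_of_false hj hi) _ hθ' _ hθ)).2
    rw [Nat.even_add_one, Nat.even_add_one]
    simp [hi, hj]

/-- an overlap of two opposite steps: the parities are different -/
theorem parity_ne (hm : ∀ i, ρ i < ρ (i + 1)) {i j : ℕ} {s t : ℝ} (hst : s < t)
    (h1 : ρ i ≤ s) (h2 : t ≤ ρ (i + 1)) (h3 : ρ j ≤ s + Real.pi) (h4 : t + Real.pi ≤ ρ (j + 1)) :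
    ¬ (Even i ↔ Even j) ∧ V (j + 1) = V (i + 1) := by
  set t' := min t (s + 1 / 2) with ht'
  have k1 : s < t' := lt_min hst (by linarith)
  have k2 : t' < s + 1 := lt_of_le_of_lt (min_le_right _ _) (by linarith)
  have k3 : t' ≤ t := min_le_left _ _
  have hi := hm i
  have hj := hm j
  have m1 : s ∈ uIcc (ρ i) (ρ (i + 1)) := by rw [uIcc_of_le hi.le]; exact ⟨h1, by linarith⟩
  have m2 : t' ∈ uIcc (ρ i) (ρ (i + 1)) := by
    rw [uIcc_of_le hi.le]; exact ⟨by linarith, by linarith⟩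
  have m3 : s + Real.pi ∈ uIcc (ρ j) (ρ (j + 1)) := by
    rw [uIcc_of_le hj.le]; exact ⟨h3, by linarith⟩
  have m4 : t' + Real.pi ∈ uIcc (ρ j) (ρ (j + 1)) := by
    rw [uIcc_of_le hj.le]; exact ⟨by linarith, by linarith⟩
  obtain ⟨a1, a2⟩ := opp_rods h hd m1 m3 (cis_add_pi169 s)
  obtain ⟨b1, -⟩ := opp_rods h hd m2 m4 (cis_add_pi169 t')
  have hne : ¬ (Even i ↔ Even j) := by
    intro he
    have h5 : arcPt V i s = arcPt V i t' := (a1 he).symm.trans (b1 he)
    unfold arcPt at h5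
    have h6 : (-1 : ℂ) ^ (i + 1) * cis s = (-1) ^ (i + 1) * cis t' := add_left_cancel h5
    exact Rods.cis_ne169 k1 k2 (mul_left_cancel₀ (pow_ne_zero _ (by norm_num)) h6)
  exact ⟨hne, a2 hne⟩

/-- **increasing angle** -/
theorem stay_odd_inc (hm : ∀ i, ρ i < ρ (i + 1)) (hbig : ∃ m, ρ 0 + Real.pi < ρ m) :
    ∃ n, Odd n ∧ ∀ i, V (i + 1 + n) = V (i + 1) ∧ ρ (i + 1 + n) = ρ (i + 1) + Real.pi := by
  classical
  have hmono : StrictMono ρ := strictMono_nat_of_lt_succ hm
  -- the first step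
  obtain ⟨j, hj1, hj2⟩ : ∃ j, ρ j ≤ ρ 0 + Real.pi ∧ ρ 0 + Real.pi < ρ (j + 1) := by
    have hex : ∃ m, ρ 0 + Real.pi < ρ m := hbig
    have h1 := Nat.find_spec hex
    have h0 : Nat.find hex ≠ 0 := by
      intro h2
      rw [h2] at h1
      linarith [Real.pi_pos]
    obtain ⟨j, hj⟩ := Nat.exists_eq_succ_of_ne_zero h0
    refine ⟨j, ?_, ?_⟩
    · have := Nat.find_min hex (m := j) (by omega)
      push Not at this
      exact this
    · rw [show j + 1 = Nat.find hex by omega]; exact h1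
  have step : ∀ i j, ρ j ≤ ρ i + Real.pi → ρ i + Real.pi < ρ (j + 1) →
      ¬ (Even i ↔ Even j) ∧ V (j + 1) = V (i + 1) ∧ ρ (j + 1) = ρ (i + 1) + Real.pi := by
    intro i j h1 h2
    have hi := hm i
    have hj := hm j
    obtain ⟨k1, k2⟩ := parity_ne h hd hm (i := i) (j := j) (s := ρ i)
      (t := min (ρ (i + 1)) (ρ (j + 1) - Real.pi)) (lt_min hi (by linarith)) le_rfl
      (min_le_left _ _) h1 (by have := min_le_right (ρ (i + 1)) (ρ (j + 1) - Real.pi); linarith)
    refine ⟨k1, k2, ?_⟩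
    rcases lt_trichotomy (ρ (j + 1)) (ρ (i + 1) + Real.pi) with h3 | h3 | h3
    · exfalso
      have hj' := hm (j + 1)
      obtain ⟨k3, -⟩ := parity_ne h hd hm (i := i) (j := j + 1) (s := ρ (j + 1) - Real.pi)
        (t := min (ρ (i + 1)) (ρ (j + 1 + 1) - Real.pi)) (lt_min (by linarith) (by linarith))
        (by linarith) (min_le_left _ _) (by linarith)
        (by have := min_le_right (ρ (i + 1)) (ρ (j + 1 + 1) - Real.pi); linarith)
      rw [Nat.even_add_one] at k3
      tauto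
    · exact h3
    · exfalso
      have hi' := hm (i + 1)
      obtain ⟨k3, -⟩ := parity_ne h hd hm (i := i + 1) (j := j) (s := ρ (i + 1))
        (t := min (ρ (i + 1 + 1)) (ρ (j + 1) - Real.pi)) (lt_min hi' (by linarith)) le_rfl
        (min_le_left _ _) (by linarith)
        (by have := min_le_right (ρ (i + 1 + 1)) (ρ (j + 1) - Real.pi); linarith)
      rw [Nat.even_add_one] at k3
      tauto
  have hall : ∀ i, V (i + 1 + j) = V (i + 1) ∧ ρ (i + 1 + j) = ρ (i + 1) + Real.pi := by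
    intro i
    induction i with
    | zero =>
      obtain ⟨-, k2, k3⟩ := step 0 j hj1 hj2
      rw [zero_add, add_comm 1 j]
      rw [zero_add] at k2 k3
      exact ⟨k2, k3⟩
    | succ i ih =>
      obtain ⟨-, k2, k3⟩ := step (i + 1) (i + 1 + j) ih.2.le (by
        rw [← ih.2]; exact hm _)
      rw [show i + 1 + 1 + j = i + 1 + j + 1 by ring]
      exact ⟨k2, k3⟩
  refine ⟨j, ?_, hall⟩
  obtain ⟨k1, -⟩ := step 0 j hj1 hj2
  rw [← Nat.not_even_iff_odd]
  intro he
  exact k1 (iff_of_true (by decide) he)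

end

/-- the mirror image of a chain -/
theorem rods_conj (h : Rods V ρ) : Rods (fun i => (starRingEnd ℂ) (V i)) (fun i => -ρ i) where
  edge i := by
    have hc : (starRingEnd ℂ) (cis (ρ i)) = cis (-ρ i) := by
      apply Complex.ext
      · rw [Complex.conj_re, cis_re, cis_re, Real.cos_neg]
      · rw [Complex.conj_im, cis_im, cis_im, Real.sin_neg]
    rw [h.edge i, map_add, map_mul, hc, map_pow, map_neg, map_one]
  le i := by
    have := h.le i
    rw [show -ρ (i + 1) - -ρ i = -(ρ (i + 1) - ρ i) by ring, abs_neg]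
    exact this
  ne i hcon := h.ne i (neg_injective hcon)

theorem arcPt_conj (i : ℕ) (θ : ℝ) :
    arcPt (fun i => (starRingEnd ℂ) (V i)) i θ = (starRingEnd ℂ) (arcPt V i (-θ)) := by
  have hc : (starRingEnd ℂ) (cis (-θ)) = cis θ := by
    apply Complex.ext
    · rw [Complex.conj_re, cis_re, cis_re, Real.cos_neg]
    · rw [Complex.conj_im, cis_im, cis_im, Real.sin_neg, neg_neg]
  unfold arcPt
  rw [map_add, map_mul, hc, map_pow, map_neg, map_one]

/-- **a chain of rods with constant orientation has an odd period** -/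
theorem stay_odd (h : Rods V ρ) {τ : ℝ} (hτ : ∀ i, 0 < τ * (ρ (i + 1) - ρ i))
    (hbig : ∃ m, Real.pi < |ρ m - ρ 0|)
    (hd : ∀ i j, (Even i ↔ Even j) → ∀ θ ∈ uIcc (ρ i) (ρ (i + 1)), ∀ θ' ∈ uIcc (ρ j) (ρ (j + 1)),
      dist (arcPt V i θ) (arcPt V j θ') ≤ 1) :
    ∃ n, Odd n ∧ ∀ i, V (i + 1 + n) = V (i + 1) ∧ |ρ (i + 1 + n) - ρ (i + 1)| = Real.pi := by
  obtain ⟨m, hm⟩ := hbig
  rcases lt_trichotomy τ 0 with h0 | h0 | h0
  · -- decreasing
    have hdec : ∀ i, ρ (i + 1) < ρ i := fun i => by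
      by_contra hcon
      push Not at hcon
      have := hτ i
      nlinarith
    have hle : ρ m ≤ ρ 0 := antitone_nat_of_succ_le (fun i => (hdec i).le) (Nat.zero_le m)
    rw [abs_of_nonpos (by linarith)] at hm
    obtain ⟨n, hn, hall⟩ := stay_odd_inc (rods_conj h) (fun i j hij θ hθ θ' hθ' => by
      rw [arcPt_conj, arcPt_conj]
      have e : ∀ x y : ℂ, dist ((starRingEnd ℂ) x) ((starRingEnd ℂ) y) = dist x y := fun x y => by
        rw [dist_eq_norm, dist_eq_norm, ← map_sub, Complex.norm_conj]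
      rw [e]
      refine hd i j hij _ ?_ _ ?_
      · rw [uIcc_of_ge (hdec i).le]
        rw [uIcc_of_le (by linarith [hdec i])] at hθ
        exact ⟨by linarith [hθ.2], by linarith [hθ.1]⟩
      · rw [uIcc_of_ge (hdec j).le]
        rw [uIcc_of_le (by linarith [hdec j])] at hθ'
        exact ⟨by linarith [hθ'.2], by linarith [hθ'.1]⟩) (fun i => by linarith [hdec i])
      ⟨m, by linarith⟩
    refine ⟨n, hn, fun i => ?_⟩
    obtain ⟨k1, k2⟩ := hall i
    refine ⟨(starRingEnd ℂ).injective k1, ?_⟩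
    rw [show ρ (i + 1 + n) - ρ (i + 1) = -Real.pi by linarith, abs_neg,
      abs_of_pos Real.pi_pos]
  · have := hτ 0
    rw [h0, zero_mul] at this
    exact absurd this (lt_irrefl _)
  · have hinc : ∀ i, ρ i < ρ (i + 1) := fun i => by
      by_contra hcon
      push Not at hcon
      have := hτ i
      nlinarith
    have hle : ρ 0 ≤ ρ m := monotone_nat_of_le_succ (fun i => (hinc i).le) (Nat.zero_le m)
    rw [abs_of_nonneg (by linarith)] at hm
    obtain ⟨n, hn, hall⟩ := stay_odd_inc h hd hinc ⟨m, by linarith⟩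
    refine ⟨n, hn, fun i => ?_⟩
    obtain ⟨k1, k2⟩ := hall i
    refine ⟨k1, ?_⟩
    rw [k2, add_sub_cancel_left, abs_of_pos Real.pi_pos]

/-! ### the polygon -/

section Poly

variable {k : ℕ} {U : Fin k → Set ℂ} {T : ℂ → Set (Fin k)} {g : Fin k} {n : ℕ}

/-- the vertices over `ℤ` -/
def zV (n : ℕ) (V : ℕ → ℂ) (j : ℤ) : ℂ := V ((j % n).toNat + n)

theorem zV_val (hn : 0 < n) (hn1 : n ≠ 1) (hper : ∀ i, V (i + 1 + n) = V (i + 1)) (j : ℤ) :
    zV n V (j + 1) = V ((j % n).toNat + n + 1) ∧ zV n V (j - 1) = V ((j % n).toNat + n - 1) := by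
  have hn' : (0 : ℤ) < n := by exact_mod_cast hn
  have h0 := Int.emod_nonneg j hn'.ne'
  have h1 := Int.emod_lt_of_pos j hn'
  obtain ⟨r, hr⟩ := Int.eq_ofNat_of_zero_le h0
  have hrn : r < n := by
    rw [hr] at h1
    have h2 : (r : ℤ) < n := h1
    exact_mod_cast h2
  have hj : j = r + n * (j / n) := by
    have := Int.emod_add_mul_ediv j n
    rw [hr] at this
    exact this.symm
  have hr' : (j % n).toNat = r := by rw [hr]; rfl
  rw [hr']
  constructor
  · unfold zV
    by_cases hc : r + 1 < n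
    · have h2 : (j + 1) % n = ((r + 1 : ℕ) : ℤ) := by
        rw [hj, show (r : ℤ) + n * (j / n) + 1 = ((r + 1 : ℕ) : ℤ) + n * (j / n) by push_cast; ring,
          Int.add_mul_emod_self_left]
        exact Int.emod_eq_of_lt (by positivity) (by exact_mod_cast hc)
      rw [h2, Int.toNat_natCast]
      congr 1; ring
    · have h3 : r + 1 = n := by omega
      have h2 : (j + 1) % n = 0 := by
        rw [hj, show (r : ℤ) + n * (j / n) + 1 = ((r + 1 : ℕ) : ℤ) + n * (j / n) by push_cast; ring,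
          h3, Int.add_mul_emod_self_left, Int.emod_self]
      rw [h2]
      have h4 := hper (n - 1)
      rw [show n - 1 + 1 = n by omega] at h4
      rw [Int.toNat_zero, zero_add, show r + n + 1 = n + n by omega, h4]
  · unfold zV
    by_cases hc : 0 < r
    · have h2 : (j - 1) % n = ((r - 1 : ℕ) : ℤ) := by
        have h5 : ((r - 1 : ℕ) : ℤ) = (r : ℤ) - 1 := by omega
        rw [hj, show (r : ℤ) + n * (j / n) - 1 = ((r - 1 : ℕ) : ℤ) + n * (j / n) by rw [h5]; ring,
          Int.add_mul_emod_self_left]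
        exact Int.emod_eq_of_lt (by positivity) (by rw [h5]; omega)
      rw [h2, Int.toNat_natCast]
      congr 1; omega
    · have h3 : r = 0 := by omega
      have h2 : (j - 1) % n = ((n - 1 : ℕ) : ℤ) := by
        have h5 : ((n - 1 : ℕ) : ℤ) = (n : ℤ) - 1 := by omega
        rw [hj, h3, show ((0 : ℕ) : ℤ) + n * (j / n) - 1 = ((n - 1 : ℕ) : ℤ) + n * (j / n - 1) by
          rw [h5]; push_cast; ring, Int.add_mul_emod_self_left]
        exact Int.emod_eq_of_lt (by positivity) (by rw [h5]; omega)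
      rw [h2, Int.toNat_natCast, h3]
      have h4 := hper (n - 2)
      rw [show n - 2 + 1 = n - 1 by omega] at h4
      rw [show 0 + n - 1 = n - 1 by omega, h4]

theorem cis_nat_pi (i : ℕ) (θ : ℝ) : cis (θ + i * Real.pi) = (-1) ^ i * cis θ := by
  induction i with
  | zero => simp
  | succ i ih =>
    rw [show θ + ((i + 1 : ℕ) : ℝ) * Real.pi = (θ + i * Real.pi) + Real.pi by push_cast; ring,
      cis_add_pi169, ih, pow_succ]
    ring

/-- **the polygon of a chain with an odd period** -/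
theorem poly_of (h : Rods V ρ) (hn : Odd n) (hper : ∀ i, V (i + 1 + n) = V (i + 1))
    (hcol : ∀ i, ∀ θ ∈ uIcc (ρ i) (ρ (i + 1)), g ∈ Pal U (arcPt V i θ)) :
    Poly U g n (zV n V)
      (fun j => ρ ((j % n).toNat + n - 1) + ((j % n).toNat + n : ℕ) * Real.pi)
      (fun j => ρ ((j % n).toNat + n) + ((j % n).toNat + n : ℕ) * Real.pi) := by
  have hn0 : 0 < n := hn.pos
  have hn1 : n ≠ 1 := by
    rintro rfl
    have h1 := h.unit 1
    have h2 := hper 0
    rw [show 0 + 1 + 1 = 1 + 1 by ring, zero_add] at h2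
    rw [h2, dist_self] at h1
    exact zero_ne_one h1
  have hq : ∀ j : ℤ, ∃ i : ℕ, (j % n).toNat + n = i + 1 := fun j =>
    ⟨(j % n).toNat + n - 1, by omega⟩
  refine ⟨hn, fun j => ?_, fun j => ?_, fun j => ?_, fun j => ?_, fun j => ?_, fun j t ht => ?_⟩
  · unfold zV
    rw [Int.add_emod_right]
  · rw [(zV_val hn0 hn1 hper j).2]
    obtain ⟨i, hi⟩ := hq j
    have h1 : zV n V j = V (i + 1) := by unfold zV; rw [hi]
    have h2 := h.arc_left i
    unfold arcPt at h2
    simp only [h1, hi, cis_nat_pi]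
    exact h2
  · rw [(zV_val hn0 hn1 hper j).1]
    obtain ⟨i, hi⟩ := hq j
    have h1 : zV n V j = V (i + 1) := by unfold zV; rw [hi]
    have h2 := h.arc_right i
    unfold arcPt at h2
    simp only [h1, hi, cis_nat_pi]
    exact h2
  · obtain ⟨i, hi⟩ := hq j
    simp only [hi]
    intro h1
    have h2 : i + 1 - 1 = i := by omega
    rw [h2] at h1
    exact h.ne i (by linarith)
  · obtain ⟨i, hi⟩ := hq j
    simp only [hi]
    have h2 : i + 1 - 1 = i := by omega
    rw [h2, show ρ (i + 1) + ((i + 1 : ℕ) : ℝ) * Real.pi - (ρ i + ((i + 1 : ℕ) : ℝ) * Real.pi) =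
      ρ (i + 1) - ρ i by ring]
    exact lt_of_le_of_lt (h.le i) (by linarith [Real.pi_pos])
  · obtain ⟨i, hi⟩ := hq j
    have h1 : zV n V j = V (i + 1) := by unfold zV; rw [hi]
    simp only [hi] at ht
    have h2 : i + 1 - 1 = i := by omega
    rw [h2] at ht
    have h3 : t - ((i + 1 : ℕ) : ℝ) * Real.pi ∈ uIcc (ρ i) (ρ (i + 1)) := by
      rcases le_total (ρ i) (ρ (i + 1)) with h4 | h4
      · rw [uIcc_of_le (by linarith)] at ht
        rw [uIcc_of_le h4]
        exact ⟨by linarith [ht.1], by linarith [ht.2]⟩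
      · rw [uIcc_of_ge (by linarith)] at ht
        rw [uIcc_of_ge h4]
        exact ⟨by linarith [ht.1], by linarith [ht.2]⟩
    have h5 := hcol i _ h3
    have h6 : arcPt V i (t - ((i + 1 : ℕ) : ℝ) * Real.pi) = V (i + 1) + cis t := by
      unfold arcPt
      rw [← cis_nat_pi]
      congr 2
      push_cast
      ring
    rw [h6] at h5
    rw [h1]
    exact h5

/-- the tile over `ℕ` -/
theorem mem_tl_zV (hn : 0 < n) (hper : ∀ i, V (i + 1 + n) = V (i + 1)) (x : ℂ) :
    x ∈ Tl (zV n V) ↔ ∀ i, dist x (V (i + 1)) ≤ 1 := by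
  have key : ∀ i q, V (i + 1 + q * n) = V (i + 1) := by
    intro i q
    induction q with
    | zero => simp
    | succ q ih =>
      rw [show i + 1 + (q + 1) * n = (i + q * n) + 1 + n by ring, hper, ← ih]
      congr 1; ring
  constructor
  · intro hx i
    have h1 := hx ((i + 1 : ℕ) : ℤ)
    unfold zV at h1
    have h2 : (((i + 1 : ℕ) : ℤ) % n).toNat = (i + 1) % n := by
      rw [← Int.natCast_mod, Int.toNat_natCast]
    rw [h2] at h1
    have h3 : V ((i + 1) % n + n) = V (i + 1) := by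
      have h4 := Nat.mod_add_div (i + 1) n
      obtain ⟨s, hs⟩ : ∃ s, (i + 1) % n + n = s + 1 := ⟨(i + 1) % n + n - 1, by omega⟩
      have h5 := key s ((i + 1) / n)
      have h6 := hper i
      rw [hs, ← h5, ← h6]
      congr 1
      have h7 : (i + 1) / n * n = n * ((i + 1) / n) := mul_comm _ _
      omega
    rwa [h3] at h1
  · intro hx j
    unfold zV
    obtain ⟨s, hs⟩ : ∃ s, (j % n).toNat + n = s + 1 := ⟨(j % n).toNat + n - 1, by omega⟩
    rw [hs]
    exact hx s

/-- the arcs of one parity are connected -/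
theorem conn_par (h : Rods V ρ) (m : ℕ) :
    IsPreconnected (⋃ q : ℕ, arcPt V (m + 2 * q) '' uIcc (ρ (m + 2 * q)) (ρ (m + 2 * q + 1))) := by
  refine IsPreconnected.iUnion_of_chain (fun q => ?_) fun q => ?_
  · exact isPreconnected_uIcc.image _ (by
      unfold arcPt
      exact (continuous_const.add (continuous_const.mul continuous_cis)).continuousOn)
  · refine ⟨V (m + 2 * q + 2), ⟨ρ (m + 2 * q + 1), right_mem_uIcc, h.arc_right _⟩, ?_⟩
    have e : m + 2 * Order.succ q = m + 2 * q + 2 := by rw [Order.succ_eq_add_one]; ring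
    rw [e]
    exact ⟨ρ (m + 2 * q + 2), left_mem_uIcc, h.arc_left _⟩

/-- the moving ends of the same parity -/
theorem diam_par (h : Rods V ρ) (hU : Irr U T)
    (hcol : ∀ i, ∀ θ ∈ uIcc (ρ i) (ρ (i + 1)), g ∈ Pal U (arcPt V i θ)) :
    ∀ i j, (Even i ↔ Even j) → ∀ θ ∈ uIcc (ρ i) (ρ (i + 1)), ∀ θ' ∈ uIcc (ρ j) (ρ (j + 1)),
      dist (arcPt V i θ) (arcPt V j θ') ≤ 1 := by
  intro i j hij θ hθ θ' hθ'
  have hmem : ∀ m, m ≤ 1 → ∀ i, (Even i ↔ Even m) → ∀ θ ∈ uIcc (ρ i) (ρ (i + 1)), arcPt V i θ ∈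
      ⋃ q : ℕ, arcPt V (m + 2 * q) '' uIcc (ρ (m + 2 * q)) (ρ (m + 2 * q + 1)) := by
    intro m hm i hi θ hθ
    obtain ⟨q, hq⟩ : ∃ q, i = m + 2 * q := by
      have h1 : i % 2 = m := by
        rcases Nat.le_one_iff_eq_zero_or_eq_one.1 hm with h2 | h2
        · rw [h2]; exact Nat.even_iff.1 (hi.2 (by rw [h2]; decide))
        · have h3 : ¬ Even i := fun h4 => by
            have := hi.1 h4
            rw [h2] at this
            exact absurd this (by decide)
          rw [h2]; exact Nat.not_even_iff.1 h3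
      exact ⟨i / 2, by omega⟩
    subst hq
    exact mem_iUnion.2 ⟨q, θ, hθ, rfl⟩
  obtain ⟨m, hm1, hm2⟩ : ∃ m, m ≤ 1 ∧ (Even i ↔ Even m) := by
    by_cases hi : Even i
    · exact ⟨0, by norm_num, iff_of_true hi (by decide)⟩
    · exact ⟨1, le_rfl, iff_of_false hi (by decide)⟩
  refine dist_le (g := g) hU (conn_par h m) (fun x hx => ?_) (hmem m hm1 i hm2 θ hθ)
    (hmem m hm1 j (hij.symm.trans hm2) θ' hθ')
  obtain ⟨q, t, ht, rfl⟩ := mem_iUnion.1 hx
  exact hcol _ t ht

/-- **A chain of rods with constant orientation, total angle more than `π` and the colour `g` on all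
closed arcs is an odd polygon of constant width one.** -/
theorem stay_poly (h : Rods V ρ) (hU : Irr U T) {τ : ℝ} (hτ : ∀ i, 0 < τ * (ρ (i + 1) - ρ i))
    (hbig : ∃ m, Real.pi < |ρ m - ρ 0|)
    (hcol : ∀ i, ∀ θ ∈ uIcc (ρ i) (ρ (i + 1)), g ∈ Pal U (arcPt V i θ)) :
    ∃ n, Odd n ∧ (∀ i, V (i + 1 + n) = V (i + 1) ∧ |ρ (i + 1 + n) - ρ (i + 1)| = Real.pi) ∧
      (∃ α β, Poly U g n (zV n V) α β) ∧ ∀ x, x ∈ Tl (zV n V) ↔ ∀ i, dist x (V (i + 1)) ≤ 1 := by
  obtain ⟨n, hn, hall⟩ := stay_odd h hτ hbig (diam_par h hU hcol)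
  exact ⟨n, hn, hall, ⟨_, _, poly_of h hn (fun i => (hall i).1) hcol⟩,
    mem_tl_zV hn.pos fun i => (hall i).1⟩

/-- total angle of a closed chain -/
theorem big_of_period (h : Rods V ρ) {N : ℕ} (hN : 0 < N) (hper : ∀ i, V (i + 2 * N) = V i)
    {τ : ℝ} (hτ : ∀ i, 0 < τ * (ρ (i + 1) - ρ i)) : ∃ m, Real.pi < |ρ m - ρ 0| := by
  refine ⟨2 * N, ?_⟩
  have e1 : cis (ρ (2 * N)) = cis (ρ 0) := by
    have h1 := h.edge 0
    have h2 := h.edge (2 * N)
    have h3 := hper 0
    have h4 := hper 1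
    rw [zero_add] at h3
    rw [add_comm] at h4
    rw [h4, h3, h1, pow_mul] at h2
    norm_num at h2
    exact h2.symm
  obtain ⟨z, hz⟩ : ∃ z : ℤ, ρ (2 * N) - ρ 0 = 2 * Real.pi * z := by
    have h1 : cis (ρ (2 * N) - ρ 0) = 1 := by
      have : cis (ρ (2 * N) - ρ 0) = cis (ρ (2 * N)) * cis (-ρ 0) := by
        rw [← cis_add169]; rfl
      rw [this, e1, ← cis_add169, add_neg_cancel, cis_zero169]
    rw [cis, Complex.exp_eq_one_iff] at h1
    obtain ⟨z, hz⟩ := h1
    refine ⟨z, ?_⟩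
    have h2 := congrArg Complex.im hz
    simp at h2
    rw [h2]; ring
  have hmono : ∀ j, 0 < j → 0 < τ * (ρ j - ρ 0) := by
    intro j
    induction j with
    | zero => intro h0; exact absurd h0 (lt_irrefl _)
    | succ j ih =>
      intro _
      have h1 := hτ j
      rcases Nat.eq_zero_or_pos j with h0 | h0
      · subst h0; simpa using h1
      · have := ih h0
        nlinarith
  have h1 := hmono (2 * N) (by omega)
  have hz0 : z ≠ 0 := by
    rintro rfl
    rw [hz] at h1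
    simp at h1
  have h2 : (1 : ℝ) ≤ |(z : ℝ)| := by
    have h3 : (1 : ℤ) ≤ |z| := Int.one_le_abs hz0
    exact_mod_cast h3
  rw [hz, abs_mul, abs_of_pos (by positivity)]
  nlinarith [Real.pi_pos]

/-- total angle of a chain with finitely many vertices -/
theorem big_of_finite (h : Rods V ρ) (hfin : (range V).Finite) {τ : ℝ}
    (hτ : ∀ i, 0 < τ * (ρ (i + 1) - ρ i)) : ∃ m, Real.pi < |ρ m - ρ 0| := by
  -- the chord of a step
  have hch : ∀ i, dist (V i) (V (i + 2)) ≤ |ρ (i + 1) - ρ i| := by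
    intro i
    have h1 := h.arc_left i
    have h2 := h.arc_right i
    rw [← h1, ← h2, arcPt, arcPt, dist_eq_norm,
      show V (i + 1) + (-1) ^ (i + 1) * cis (ρ i) - (V (i + 1) + (-1) ^ (i + 1) * cis (ρ (i + 1))) =
        (-1) ^ (i + 1) * (cis (ρ i) - cis (ρ (i + 1))) by ring, norm_npow169]
    have h3 : cis (ρ i) - cis (ρ (i + 1)) = cis (ρ (i + 1)) * (cis (ρ i - ρ (i + 1)) - 1) := by
      rw [mul_sub, ← cis_add169, mul_one]; congr 2; ring
    rw [h3, norm_mul, norm_cis, one_mul]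
    have h4 := Real.norm_exp_I_mul_ofReal_sub_one_le (x := ρ i - ρ (i + 1))
    rw [abs_sub_comm, ← Real.norm_eq_abs]
    have h5 : cis (ρ i - ρ (i + 1)) = Complex.exp (Complex.I * ((ρ i - ρ (i + 1) : ℝ) : ℂ)) := by
      unfold cis; rw [mul_comm]
    rw [h5]
    exact h4
  have hne : ∀ i, V i ≠ V (i + 2) := by
    intro i hi
    have h1 := h.arc_left i
    have h2 := h.arc_right i
    rw [← hi, ← h1] at h2
    unfold arcPt at h2
    have h3 : cis (ρ (i + 1)) = cis (ρ i) :=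
      mul_left_cancel₀ (pow_ne_zero _ (by norm_num)) (add_left_cancel h2)
    have h4 := h.le i
    have h5 : cis (ρ (i + 1) - ρ i) = 1 := by
      have : cis (ρ (i + 1) - ρ i) = cis (ρ (i + 1)) * cis (-ρ i) := by rw [← cis_add169]; rfl
      rw [this, h3, ← cis_add169, add_neg_cancel, cis_zero169]
    have h6 := congrArg Complex.re h5
    rw [cis_re, Complex.one_re] at h6
    have h7 := sub_ne_zero.2 (h.ne i)
    have h8 := abs_le.1 h4
    have hpi := Real.pi_pos
    have h9 : ρ (i + 1) - ρ i = 0 := by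
      refine (Real.cos_eq_one_iff_of_lt_of_lt ?_ ?_).1 h6
      · linarith [h8.1]
      · linarith [h8.2]
    exact h7 h9
  -- the smallest distance
  obtain ⟨δ, hδ, hmin⟩ : ∃ δ > 0, ∀ i, δ ≤ dist (V i) (V (i + 2)) := by
    have hS : (((range V ×ˢ range V) \ {q | q.1 = q.2}).image fun q : ℂ × ℂ => dist q.1 q.2).Finite :=
      ((hfin.prod hfin).subset sdiff_subset).image _
    have hne0 : (((range V ×ˢ range V) \ {q | q.1 = q.2}).image
        fun q : ℂ × ℂ => dist q.1 q.2).Nonempty :=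
      ⟨_, ⟨(V 0, V 2), ⟨⟨⟨0, rfl⟩, ⟨2, rfl⟩⟩, hne 0⟩, rfl⟩⟩
    obtain ⟨δ, ⟨q, hq, hqδ⟩, hall⟩ := Set.exists_min_image _ id hS hne0
    refine ⟨δ, ?_, fun i => ?_⟩
    · rw [← hqδ]; exact dist_pos.2 hq.2
    · exact hall _ ⟨(V i, V (i + 2)), ⟨⟨⟨i, rfl⟩, ⟨i + 2, rfl⟩⟩, hne i⟩, rfl⟩
  have hstep : ∀ i, δ ≤ |ρ (i + 1) - ρ i| := fun i => (hmin i).trans (hch i)
  have hτ0 : τ ≠ 0 := by
    rintro rfl
    have := hτ 0
    rw [zero_mul] at this
    exact lt_irrefl _ this
  -- the angles add up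
  have hsum : ∀ m : ℕ, (m : ℝ) * δ * |τ| ≤ τ * (ρ m - ρ 0) := by
    intro m
    induction m with
    | zero => simp
    | succ m ih =>
      have h1 : |τ| * |ρ (m + 1) - ρ m| = τ * (ρ (m + 1) - ρ m) := by
        rw [← abs_mul]; exact abs_of_pos (hτ m)
      have h2 := mul_le_mul_of_nonneg_left (hstep m) (abs_nonneg τ)
      push_cast
      nlinarith
  obtain ⟨m, hm⟩ := exists_nat_gt (Real.pi / δ)
  refine ⟨m, ?_⟩
  have h1 : Real.pi < m * δ := (div_lt_iff₀ hδ).1 hm
  have h2 := hsum m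
  have h3 : τ * (ρ m - ρ 0) ≤ |τ| * |ρ m - ρ 0| := by rw [← abs_mul]; exact le_abs_self _
  have h4 : 0 < |τ| := abs_pos.2 hτ0
  by_contra hcon
  push Not at hcon
  nlinarith [mul_le_mul_of_nonneg_left hcon h4.le, mul_lt_mul_of_pos_right h1 h4]

/-- **the polygon of a chain of points of a locally finite set** -/
theorem stay_poly_fin (h : Rods V ρ) (hU : Irr U T) {τ : ℝ} (hτ : ∀ i, 0 < τ * (ρ (i + 1) - ρ i))
    {E : Set ℂ} (hE : ∀ c r, (E ∩ closedBall c r).Finite) (hVE : ∀ i, V i ∈ E)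
    (hcol : ∀ i, ∀ θ ∈ uIcc (ρ i) (ρ (i + 1)), g ∈ Pal U (arcPt V i θ)) :
    ∃ n, Odd n ∧ (∀ i, V (i + 1 + n) = V (i + 1) ∧ |ρ (i + 1 + n) - ρ (i + 1)| = Real.pi) ∧
      (∃ α β, Poly U g n (zV n V) α β) ∧ ∀ x, x ∈ Tl (zV n V) ↔ ∀ i, dist x (V (i + 1)) ≤ 1 := by
  refine stay_poly h hU hτ (big_of_finite h ?_ hτ) hcol
  refine (hE (V 0) 2).subset ?_
  rintro x ⟨i, rfl⟩
  refine ⟨hVE i, ?_⟩
  rw [mem_closedBall]
  have hd := diam_par h hU hcol
  have hpar : ∀ a b, (Even a ↔ Even b) → dist (V a) (V b) ≤ 1 := by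
    intro a b hab
    rw [← h.arc_left a, ← h.arc_left b]
    exact hd a b hab _ left_mem_uIcc _ left_mem_uIcc
  by_cases hi : Even i
  · have := hpar i 0 (iff_of_true hi (by decide))
    linarith
  · have h1 := hpar i 1 (iff_of_false hi (by decide))
    have h2 := h.unit 0
    rw [zero_add, dist_comm] at h2
    have h3 := dist_triangle (V i) (V 1) (V 0)
    linarith

end Poly

end Vale.Agent.P032.H484
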