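import Vale.Agent.P032.H484.Tile

/-!
# P032: tiles of constant width one, further facts

* `Poly.int_lt` : an interior point is at distance less than one from all points of the tile.
* `Poly.near_mem` : near a point of the tile the colour `g` is only in the tile.
* `Poly.sub_of_meets` : a connected set with the colour `g` in all palettes which meets the tile is
  in the tile; two tiles of the same colour are disjoint or equal.
* `Poly.ball_int` : the closed unit disc about an interior point contains the tile, and no point with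
  the colour `g` outside the tile.
-/

open Set Filter Topology Metric

noncomputable section

namespace Vale.Agent.P032.H484

open Vale.Agent.P032.Six

variable {k : ℕ} {U : Fin k → Set ℂ} {T : ℂ → Set (Fin k)} {g : Fin k} {n n' : ℕ}
  {V V' : ℤ → ℂ} {α β α' β' : ℤ → ℝ}

/-- an interior point is at distance less than one from all points of the tile -/
theorem Poly.int_lt (P : Poly U g n V α β) (h : Irr U T) {x : ℂ} (hx : x ∈ interior (Tl V))
    {q : ℂ} (hq : q ∈ Tl V) : dist x q < 1 := by
  refine lt_of_le_of_ne (P.tile_diam h (interior_subset hx) hq) fun h1 => ?_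
  exact h.mx.notMem' (P.tile_int h hx) h1 (P.tile_pal h q hq)

theorem Poly.int_lt_vertex (P : Poly U g n V α β) (h : Irr U T) {x : ℂ}
    (hx : x ∈ interior (Tl V)) (j : ℤ) : dist x (V j) < 1 := P.int_lt h hx (P.mem_tl h j)

/-- the interior of the tile -/
theorem Poly.mem_interior_iff (P : Poly U g n V α β) (h : Irr U T) (x : ℂ) :
    x ∈ interior (Tl V) ↔ ∀ j, dist x (V j) < 1 :=
  ⟨fun hx j => P.int_lt_vertex h hx j, P.mem_int⟩

/-- near a point of the tile the colour is only in the tile -/
theorem Poly.near_mem (P : Poly U g n V α β) (h : Irr U T) {x : ℂ} (hx : x ∈ Tl V) :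
    ∀ᶠ y in 𝓝 x, g ∈ Pal U y → y ∈ Tl V := by
  filter_upwards [ball_mem_nhds x one_pos] with y hy hg
  by_contra hcon
  have h1 := P.tile_far h hcon hg x hx
  have h2 : dist y x < 1 := hy
  linarith

theorem Poly.near_memT (P : Poly U g n V α β) (h : Irr U T) {x : ℂ} (hx : x ∈ Tl V) :
    ∀ᶠ y in 𝓝 x, g ∈ T y → y ∈ Tl V :=
  (P.near_mem h hx).mono fun y hy hg => hy (h.sub y hg)

/-- **a connected set with the colour `g` which meets the tile is in the tile** -/
theorem Poly.sub_of_meets (P : Poly U g n V α β) (h : Irr U T) {K : Set ℂ}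
    (hK : IsPreconnected K) (hKg : ∀ x ∈ K, g ∈ Pal U x) {x : ℂ} (hx : x ∈ K)
    (hxT : x ∈ Tl V) : K ⊆ Tl V := by
  -- the set of the points at distance less than one from a point of the tile
  have hopen : IsOpen (⋃ q ∈ Tl V, ball q 1) := isOpen_biUnion fun q _ => isOpen_ball
  have hcov : K ⊆ (⋃ q ∈ Tl V, ball q 1) ∪ (Tl V)ᶜ := by
    intro y _
    by_cases hyT : y ∈ Tl V
    · exact Or.inl (mem_biUnion hyT (mem_ball_self one_pos))
    · exact Or.inr hyT
  by_contra hcon
  obtain ⟨y, hy, hyT⟩ := not_subset.1 hcon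
  obtain ⟨z, hzK, hz1, hz2⟩ := hK _ _ hopen (isClosed_tl V).isOpen_compl hcov
    ⟨x, hx, mem_biUnion hxT (mem_ball_self one_pos)⟩ ⟨y, hy, hyT⟩
  obtain ⟨q, hq, hzq⟩ := mem_iUnion₂.1 hz1
  have h1 := P.tile_far h hz2 (hKg z hzK) q hq
  have h2 : dist z q < 1 := hzq
  linarith

/-- two tiles of the same colour which meet are equal -/
theorem Poly.eq_of_meets (P : Poly U g n V α β) (P' : Poly U g n' V' α' β') (h : Irr U T) {x : ℂ}
    (hx : x ∈ Tl V) (hx' : x ∈ Tl V') : Tl V = Tl V' :=
  Subset.antisymm
    (P'.sub_of_meets h (convex_tl V).isPreconnected (P.tile_pal h) hx hx')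
    (P.sub_of_meets h (convex_tl V').isPreconnected (P'.tile_pal h) hx' hx)

theorem Poly.disjoint_or_eq (P : Poly U g n V α β) (P' : Poly U g n' V' α' β') (h : Irr U T) :
    Disjoint (Tl V) (Tl V') ∨ Tl V = Tl V' := by
  by_cases hd : Disjoint (Tl V) (Tl V')
  · exact Or.inl hd
  · obtain ⟨x, hx, hx'⟩ := Set.not_disjoint_iff.1 hd
    exact Or.inr (P.eq_of_meets P' h hx hx')

/-- **the closed unit disc about an interior point** contains the tile; a point of it with the
colour `g` is in the tile -/
theorem Poly.ball_int (P : Poly U g n V α β) (h : Irr U T) {x : ℂ} (hx : x ∈ interior (Tl V)) :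
    Tl V ⊆ ball x 1 ∧ ∀ u, dist u x ≤ 1 → g ∈ Pal U u → u ∈ Tl V := by
  refine ⟨fun q hq => ?_, fun u hu hg => ?_⟩
  · rw [mem_ball, dist_comm]; exact P.int_lt h hx hq
  · by_contra hcon
    have := P.tile_far_lt h hcon hg hx
    linarith

/-- the tile is the closure of its interior -/
theorem Poly.closure_interior (P : Poly U g n V α β) (h : Irr U T) (hne : (interior (Tl V)).Nonempty) :
    closure (interior (Tl V)) = Tl V := by
  rw [(convex_tl V).closure_interior_eq_closure_of_nonempty_interior hne, (isClosed_tl V).closure_eq]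

/-- the interior is not empty -/
theorem Poly.int_nonempty (P : Poly U g n V α β) (h : Irr U T) : (interior (Tl V)).Nonempty := by
  by_contra hcon
  rw [Set.not_nonempty_iff_eq_empty] at hcon
  -- near `V 0` there is a point of `U g`, it is in the tile with a neighbourhood
  have h1 := P.near_mem h (P.mem_tl h 0)
  have h2 : g ∈ Pal U (V 0) := P.tile_pal h _ (P.mem_tl h 0)
  obtain ⟨w, hw, hwU⟩ := mem_closure_iff_nhds.1 h2 _ h1
  obtain ⟨w', hw', hw'2⟩ : ∃ w', w' ∈ U g ∧ ∀ᶠ y in 𝓝 w', y ∈ Tl V := by
    have h3 : ∃ᶠ y in 𝓝 (V 0), y ∈ U g := mem_closure_iff_frequently.1 h2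
    obtain ⟨w', h4, h5⟩ := (h3.and_eventually h1.eventually_nhds).exists
    refine ⟨w', h4, ?_⟩
    filter_upwards [h5, (h.mx.isOpen g).mem_nhds h4] with y h6 h7
    exact h6 (subset_closure h7)
  have h6 : w' ∈ interior (Tl V) := mem_interior_iff_mem_nhds.2 hw'2
  rw [hcon] at h6
  exact h6

end Vale.Agent.P032.H484
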