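import Vale.Agent.P032.H460.ContVV

/-!
# P032: links of type E1 / HE / H between two-pair points

`V = (ab | cd)`, `y = (ac | ef)` at distance one, `e`, `f` free at `V`.

* `arc_side` : the sides of `S(p)` at `V`, `p` in an exact arc of `S(V)`.
* `he_end` : `V` is a limit of points of exact `ac`-arcs of `S(y)`.
* `e1_apex` : an apex of order at most three is in the closure of the exact `ef`-arcs of `S(y)`.
* `h_apex` : `V = (ab | cd)`, `y = (ab | ef)`: an apex of order at most three is in the closure of the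
  exact `cd`-arcs of `S(V)` or of the exact `ef`-arcs of `S(y)`.
-/

open Set Filter Topology Metric

noncomputable section

namespace Vale.Agent.P032.H484

open Vale.Agent.P032.Six Vale.Agent.P032.S5.H767 Vale.Agent.P032.H460

variable {U : Fin 6 → Set ℂ} {T : ℂ → Set (Fin 6)}

/-! ### sides -/

theorem ray_tendsto (V v : ℂ) : Tendsto (fun r : ℝ => V + r * v) (𝓝[>] 0) (𝓝 V) := by
  have h1 : Continuous fun r : ℝ => V + r * v := by fun_prop
  have h2 := h1.tendsto 0
  simp only [Complex.ofReal_zero, zero_mul, add_zero] at h2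
  exact h2.mono_left nhdsWithin_le_nhds

theorem ray_far {V y v : ℂ} (hVy : dist V y = 1) (hip : ip v (y - V) < 0) :
    ∀ᶠ r : ℝ in 𝓝[>] 0, 1 < dist (V + r * v) y := by
  filter_upwards [self_mem_nhdsWithin] with r hr
  have hr : 0 < r := hr
  have h4 := sq_line V v y r
  rw [hVy] at h4
  have h5 := dist_nonneg (x := V + r * v) (y := y)
  have h0 : 0 ≤ ip v v := by unfold ip; nlinarith [sq_nonneg v.re, sq_nonneg v.im]
  nlinarith [mul_pos hr (neg_pos.2 hip), mul_nonneg (sq_nonneg r) h0]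

theorem ray_near {V y v : ℂ} (hVy : dist V y = 1) (hip : 0 < ip v (y - V)) :
    ∀ᶠ r : ℝ in 𝓝[>] 0, dist (V + r * v) y < 1 := by
  have h0 : 0 ≤ ip v v := by unfold ip; nlinarith [sq_nonneg v.re, sq_nonneg v.im]
  have h1 : 0 < 2 * ip v (y - V) / (ip v v + 1) := by positivity
  filter_upwards [self_mem_nhdsWithin, mem_nhdsWithin_of_mem_nhds (Iio_mem_nhds h1)] with r hr hr2
  have hr : 0 < r := hr
  have hr2 : r * (ip v v + 1) < 2 * ip v (y - V) := (lt_div_iff₀ (by linarith)).1 hr2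
  have h4 := sq_line V v y r
  rw [hVy] at h4
  have h5 := dist_nonneg (x := V + r * v) (y := y)
  nlinarith [mul_pos hr (sub_pos.2 hr2), mul_nonneg (sq_nonneg r) h0]

/-- no ray of `U a` outside if `a` is not outside -/
theorem ray_nonneg {a : Fin 6} {V y v : ℂ} (hVy : dist V y = 1) (hR : Ray (U a) V v)
    (hF : ∀ᶠ x in 𝓝 V, 1 < dist x y → a ∉ Pal U x) : 0 ≤ ip v (y - V) := by
  by_contra hcon
  push Not at hcon
  obtain ⟨r, h1, h2, h3⟩ := ((ray_tendsto V v).eventually hF |>.and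
    ((ray_far hVy hcon).and hR)).exists
  exact h1 h2 (subset_closure h3)

theorem ray_nonpos {a : Fin 6} {V y v : ℂ} (hVy : dist V y = 1) (hR : Ray (U a) V v)
    (hF : ∀ᶠ x in 𝓝 V, dist x y < 1 → a ∉ Pal U x) : ip v (y - V) ≤ 0 := by
  by_contra hcon
  push Not at hcon
  obtain ⟨r, h1, h2, h3⟩ := ((ray_tendsto V v).eventually hF |>.and
    ((ray_near hVy hcon).and hR)).exists
  exact h1 h2 (subset_closure h3)

/-- **the sides of `S(p)` at `V`**, `p` in an exact `cd`-arc of `S(V)` -/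
theorem arc_side (h : Irr U T) {V p v : ℂ} {c d : Fin 6} (hp : Arc T V p {c, d})
    (hc : Ray (U c) V v) (hd : Ray (U d) V (-v)) (hip : 0 < ip v (p - V)) :
    (∀ᶠ x in 𝓝 V, 1 < dist x p → c ∉ Pal U x) ∧ ∀ᶠ x in 𝓝 V, dist x p < 1 → d ∉ Pal U x := by
  have hip' : ip (-v) (p - V) < 0 := by
    have : ip (-v) (p - V) = - ip v (p - V) := by unfold ip; simp; ring
    linarith
  have h1 := h.mx.far hc hp.1 hip
  have h2 := h.mx.near hd hp.1 hip'
  have hpT : T p = {c, d} := hp.mem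
  have hVp : dist V p = 1 := by rw [dist_comm]; exact hp.1
  have hpp : ip (V - p) (V - p) = 1 := by
    have h3 : dist V p ^ 2 = 1 := by rw [hVp]; norm_num
    rw [sq_dist] at h3
    unfold ip
    simp only [Complex.sub_re, Complex.sub_im]
    linarith
  have hpp' : ip (-(V - p)) (V - p) = -1 := by
    have : ip (-(V - p)) (V - p) = - ip (V - p) (V - p) := by unfold ip; simp; ring
    linarith
  have hd1 : ∀ᶠ r : ℝ in 𝓝[>] 0, dist (p + r * (V - p)) V < 1 :=
    ray_near hp.1 (by rw [hpp]; norm_num)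
  have hd2 : ∀ᶠ r : ℝ in 𝓝[>] 0, 1 < dist (p + r * -(V - p)) V :=
    ray_far hp.1 (by rw [hpp']; norm_num)
  have hrc : Ray (U c) p (V - p) := by
    filter_upwards [hd1, (ray_tendsto p (V - p)).eventually h2,
      (ray_tendsto p (V - p)).eventually (h.nhd p)] with r k1 k2 k3
    refine h.mem_of_single fun i hi => ?_
    have k4 := k3 hi
    rw [hpT] at k4
    rcases k4 with k4 | k4
    · exact k4
    · rw [mem_singleton_iff] at k4
      subst k4
      exact absurd (h.sub _ hi) (k2 k1)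
  have hrd : Ray (U d) p (-(V - p)) := by
    filter_upwards [hd2, (ray_tendsto p (-(V - p))).eventually h1,
      (ray_tendsto p (-(V - p))).eventually (h.nhd p)] with r k1 k2 k3
    refine h.mem_of_single fun i hi => ?_
    have k4 := k3 hi
    rw [hpT] at k4
    rcases k4 with k4 | k4
    · subst k4
      exact absurd (h.sub _ hi) (k2 k1)
    · exact k4
  exact ⟨h.mx.far hrc hVp (by rw [hpp]; norm_num), h.mx.near hrd hVp (by rw [hpp']; norm_num)⟩

/-- an arc has points off two lines through the centre -/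
theorem arc_generic {V p y y' : ℂ} {P : Set (Fin 6)} (hp : Arc T V p P) :
    ∃ q, Arc T V q P ∧ (q ≠ y ∧ q + y ≠ 2 * V) ∧ q ≠ y' ∧ q + y' ≠ 2 * V := by
  obtain ⟨q, -, hqz, hqy, hqy2, hJq⟩ := exists_generic (y := y) hp.1 hp.2
  have h1 : ∀ᶠ x in 𝓝[sphere V 1] q, (T x = P ∧ x ≠ y ∧ x + y ≠ 2 * V) := by
    refine Filter.Eventually.and hJq (mem_nhdsWithin_of_mem_nhds ?_)
    have e1 : ∀ᶠ x in 𝓝 q, x ≠ y := isOpen_ne.mem_nhds hqy
    have e2 : ∀ᶠ x in 𝓝 q, x + y ≠ 2 * V :=
      (continuous_id.add continuous_const).continuousAt.eventually (isOpen_ne.mem_nhds hqy2)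
    exact e1.and e2
  obtain ⟨q', hq's, hq'z, hq'y, hq'y2, hJ'⟩ := exists_generic (y := y') hqz h1
  have hJ2 : ∀ᶠ x in 𝓝[sphere V 1] q', (T x = P ∧ x ≠ y ∧ x + y ≠ 2 * V) := hJ'
  exact ⟨q', ⟨hq'z, hJ2.mono fun x hx => hx.1⟩, hq's.2, hq'y, hq'y2⟩

theorem cr_ne {V p y : ℂ} (hp : dist p V = 1) (hy : dist y V = 1) (h1 : p ≠ y)
    (h2 : p + y ≠ 2 * V) : cr (p - V) (y - V) ≠ 0 := by
  intro h3
  rcases cr_zero (by rw [← dist_eq_norm]; exact hp) (by rw [← dist_eq_norm]; exact hy) h3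
    with h4 | h4
  · exact h1 (by linear_combination h4)
  · exact h2 (by linear_combination h4)

theorem ip_I (s : ℝ) (a b : ℂ) : ip (s * (Complex.I * a)) b = s * cr a b := by
  unfold ip cr; simp; ring

/-- the point of `S(y)` -/
def wc (y V : ℂ) (φ : ℝ) : ℂ := y + (V - y) * cis φ

theorem dist_wc {y V : ℂ} (hVy : dist V y = 1) (φ : ℝ) : dist (wc y V φ) y = 1 := by
  unfold wc
  rw [dist_eq_norm, add_sub_cancel_left, norm_mul, ← dist_eq_norm, hVy, one_mul]
  unfold cis
  exact Complex.norm_exp_ofReal_mul_I φ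

theorem wc_sq {y V p : ℂ} (hVy : dist V y = 1) (hp : dist p V = 1) (φ : ℝ) :
    dist (wc y V φ) p ^ 2 = 1 + 2 * (1 - Real.cos φ) * (1 - ip (y - V) (p - V)) +
      2 * Real.sin φ * cr (y - V) (p - V) := by
  have h1 : dist V y ^ 2 = 1 := by rw [hVy]; norm_num
  have h2 : dist p V ^ 2 = 1 := by rw [hp]; norm_num
  rw [sq_dist] at h1 h2 ⊢
  have h3 := Real.sin_sq_add_cos_sq φ
  unfold wc ip cr
  simp only [Complex.add_re, Complex.add_im, Complex.mul_re, Complex.mul_im, Complex.sub_re,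
    Complex.sub_im, cis_re, cis_im]
  linear_combination (Real.sin φ ^ 2 + Real.cos φ ^ 2 + 1 - 2 * Real.cos φ) * h1 + h2 + h3

theorem wc_tendsto (y V : ℂ) (σ : ℝ) : Tendsto (fun θ : ℝ => wc y V (σ * θ)) (𝓝[>] 0) (𝓝 V) := by
  have h1 : Continuous fun θ : ℝ => wc y V (σ * θ) := by
    unfold wc
    exact continuous_const.add (continuous_const.mul (continuous_cis.comp (by fun_prop)))
  have h2 := h1.tendsto 0
  have h3 : wc y V (σ * 0) = V := by
    unfold wc
    rw [mul_zero, cis]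
    simp
  rw [h3] at h2
  exact h2.mono_left nhdsWithin_le_nhds

theorem ip_abs {a b : ℂ} (ha : ‖a‖ = 1) (hb : ‖b‖ = 1) : ip a b ≤ 1 := by
  have h1 := ip_sq ha
  have h2 := ip_sq hb
  unfold ip
  nlinarith [sq_nonneg (a.re - b.re), sq_nonneg (a.im - b.im)]

theorem trig (θ : ℝ) (σ : ℝ) (hσ : σ = 1 ∨ σ = -1) : Real.cos (σ * θ) = Real.cos θ ∧
    Real.sin (σ * θ) = σ * Real.sin θ := by
  rcases hσ with rfl | rfl
  · simp
  · simp

/-- the side of `S(p)` on which `S(y)` runs -/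
theorem wc_out {y V p : ℂ} (hVy : dist V y = 1) (hp : dist p V = 1) {σ : ℝ}
    (hσ : σ = 1 ∨ σ = -1) (hc : 0 < σ * cr (y - V) (p - V)) :
    ∀ᶠ θ : ℝ in 𝓝[>] 0, 1 < dist (wc y V (σ * θ)) p := by
  filter_upwards [self_mem_nhdsWithin, mem_nhdsWithin_of_mem_nhds (Iio_mem_nhds one_pos)]
    with θ h1 h2
  have h1 : 0 < θ := h1
  have h2 : θ < 1 := h2
  have h3 : 0 < Real.sin θ := Real.sin_pos_of_pos_of_lt_pi h1 (by linarith [Real.pi_gt_three])
  have h4 := wc_sq hVy hp (σ * θ)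
  rw [(trig θ σ hσ).1, (trig θ σ hσ).2] at h4
  have h5 : ip (y - V) (p - V) ≤ 1 := ip_abs (by rw [← dist_eq_norm, dist_comm]; exact hVy)
    (by rw [← dist_eq_norm]; exact hp)
  have h6 := Real.cos_le_one θ
  have h7 := dist_nonneg (x := wc y V (σ * θ)) (y := p)
  nlinarith [mul_pos h3 hc, mul_nonneg (sub_nonneg.2 h6) (sub_nonneg.2 h5)]

theorem wc_in {y V p : ℂ} (hVy : dist V y = 1) (hp : dist p V = 1) {σ : ℝ}
    (hσ : σ = 1 ∨ σ = -1) (hc : σ * cr (y - V) (p - V) < 0) :
    ∀ᶠ θ : ℝ in 𝓝[>] 0, dist (wc y V (σ * θ)) p < 1 := by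
  have hF : ∀ᶠ θ : ℝ in 𝓝[>] 0, Real.sin (θ / 2) * (1 - ip (y - V) (p - V)) +
      Real.cos (θ / 2) * (σ * cr (y - V) (p - V)) < 0 := by
    have h1 : Continuous fun θ : ℝ => Real.sin (θ / 2) * (1 - ip (y - V) (p - V)) +
      Real.cos (θ / 2) * (σ * cr (y - V) (p - V)) := by fun_prop
    have h2 := h1.tendsto 0
    simp only [zero_div, Real.sin_zero, zero_mul, Real.cos_zero, one_mul, zero_add] at h2
    exact (h2.mono_left nhdsWithin_le_nhds).eventually (Iio_mem_nhds hc)
  filter_upwards [self_mem_nhdsWithin, mem_nhdsWithin_of_mem_nhds (Iio_mem_nhds one_pos), hF]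
    with θ h1 h2 h8
  have h1 : 0 < θ := h1
  have h2 : θ < 1 := h2
  have h3 : 0 < Real.sin (θ / 2) :=
    Real.sin_pos_of_pos_of_lt_pi (by linarith) (by linarith [Real.pi_gt_three])
  have h4 := wc_sq hVy hp (σ * θ)
  rw [(trig θ σ hσ).1, (trig θ σ hσ).2] at h4
  have h5 : Real.cos θ = 1 - 2 * Real.sin (θ / 2) ^ 2 := by
    have h6 := Real.cos_sq' (θ / 2)
    have h7 := Real.cos_two_mul (θ / 2)
    rw [show 2 * (θ / 2) = θ by ring] at h7
    linarith
  have h6 : Real.sin θ = 2 * Real.sin (θ / 2) * Real.cos (θ / 2) := by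
    rw [← Real.sin_two_mul]; congr 1; ring
  rw [h5, h6] at h4
  have h7 := dist_nonneg (x := wc y V (σ * θ)) (y := p)
  have h9 : dist (wc y V (σ * θ)) p ^ 2 = 1 + 4 * Real.sin (θ / 2) *
      (Real.sin (θ / 2) * (1 - ip (y - V) (p - V)) +
      Real.cos (θ / 2) * (σ * cr (y - V) (p - V))) := by
    rw [h4]; ring
  nlinarith [mul_pos h3 (neg_pos.2 h8)]

/-! ### the end -/

theorem he_aux (h : Irr U T) {V y : ℂ} {a b c d : Fin 6} {Q' : Set (Fin 6)}
    (hV : DPt T V a b c d) (hVy : dist V y = 1) (hac : {a, c} ⊆ T y)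
    (hnear : ∀ w, dist w y = 1 → T w ⊆ T y → w ∈ closure (Ex T y {a, c}) ∨
      w ∈ closure (Ex T y Q'))
    (hQ : ¬ Q' ⊆ {a, c})
    (hFA : ∀ᶠ x in 𝓝 V, 1 < dist x y → a ∉ Pal U x)
    (hFC : ∀ᶠ x in 𝓝 V, dist x y < 1 → c ∉ Pal U x) : V ∈ closure (Ex T y {a, c}) := by
  have hyV : dist y V = 1 := by rw [dist_comm]; exact hVy
  -- generic points of the arcs
  obtain ⟨p0, hp0⟩ := hV.arc2
  obtain ⟨p, hp, ⟨hpy, hpy2⟩, -⟩ := arc_generic (y := y) (y' := y) hp0
  obtain ⟨q0, hq0⟩ := hV.arc1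
  obtain ⟨q, hq, ⟨hqy, hqy2⟩, hqp, hqp2⟩ := arc_generic (y := y) (y' := p) hq0
  have hA : cr (y - V) (p - V) ≠ 0 := cr_ne hyV hp.1 (Ne.symm hpy) (by rwa [add_comm])
  have hB : cr (y - V) (q - V) ≠ 0 := cr_ne hyV hq.1 (Ne.symm hqy) (by rwa [add_comm])
  have hD : cr (p - V) (q - V) ≠ 0 := cr_ne hp.1 hq.1 (Ne.symm hqp) (by rwa [add_comm])
  have hanti : ∀ u v : ℂ, cr u v = - cr v u := fun u v => by unfold cr; ring
  -- the rays at `V`
  obtain ⟨s, hs, hra, hrb⟩ : ∃ s : ℝ, (s = 1 ∨ s = -1) ∧ Ray (U a) V (s * (Complex.I * (p - V))) ∧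
      Ray (U b) V (-(s * (Complex.I * (p - V)))) := by
    rcases h.d0 hV hp with ⟨k1, k2⟩ | ⟨k1, k2⟩
    · exact ⟨1, Or.inl rfl, by simpa using k1, by simpa using k2⟩
    · exact ⟨-1, Or.inr rfl, by simpa using k2, by simpa using k1⟩
  obtain ⟨s', hs', hrc, hrd⟩ : ∃ s : ℝ, (s = 1 ∨ s = -1) ∧
      Ray (U c) V (s * (Complex.I * (q - V))) ∧ Ray (U d) V (-(s * (Complex.I * (q - V)))) := by
    rcases h.d0 hV.swap hq with ⟨k1, k2⟩ | ⟨k1, k2⟩
    · exact ⟨1, Or.inl rfl, by simpa using k1, by simpa using k2⟩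
    · exact ⟨-1, Or.inr rfl, by simpa using k2, by simpa using k1⟩
  have hs2 : s ^ 2 = 1 := by rcases hs with rfl | rfl <;> norm_num
  have hs2' : s' ^ 2 = 1 := by rcases hs' with rfl | rfl <;> norm_num
  have ha1 := ray_nonneg hVy hra hFA
  have hc1 := ray_nonpos hVy hrc hFC
  rw [ip_I] at ha1 hc1
  set A := cr (y - V) (p - V) with hAd
  set B := cr (y - V) (q - V) with hBd
  set D := cr (p - V) (q - V) with hDd
  have ea : cr (p - V) (y - V) = -A := hanti _ _
  have eb : cr (q - V) (y - V) = -B := hanti _ _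
  have ed : cr (q - V) (p - V) = -D := hanti _ _
  rw [ea] at ha1
  rw [eb] at hc1
  have hsA : s * A < 0 := by
    have h1 : s * A ≠ 0 := mul_ne_zero (by rintro rfl; norm_num at hs2) hA
    have h2 : s * A ≤ 0 := by linarith
    exact lt_of_le_of_ne h2 h1
  have hsB : 0 < s' * B := by
    have h1 : s' * B ≠ 0 := mul_ne_zero (by rintro rfl; norm_num at hs2') hB
    have h2 : 0 ≤ s' * B := by linarith
    exact lt_of_le_of_ne h2 h1.symm
  -- the direction
  obtain ⟨σ, hσ, hσ0⟩ : ∃ σ : ℝ, (σ = 1 ∨ σ = -1) ∧ 0 < σ * (A * B * D) := by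
    rcases lt_or_gt_of_ne (mul_ne_zero (mul_ne_zero hA hB) hD) with h1 | h1
    · exact ⟨-1, Or.inr rfl, by linarith⟩
    · exact ⟨1, Or.inl rfl, by linarith⟩
  have hσ2 : σ ^ 2 = 1 := by rcases hσ with rfl | rfl <;> norm_num
  -- no `d`
  have hnd : ∀ᶠ θ : ℝ in 𝓝[>] 0, d ∉ Pal U (wc y V (σ * θ)) := by
    have hkey : 0 < (σ * A) * (s' * D) := by
      have h1 : (σ * A) * (s' * D) * (s' * B) = σ * (A * B * D) * s' ^ 2 := by ring
      rw [hs2', mul_one] at h1
      by_contra hcon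
      push Not at hcon
      nlinarith [mul_nonneg (neg_nonneg.2 hcon) hsB.le]
    rcases lt_or_gt_of_ne (mul_ne_zero (show s' ≠ 0 by rintro rfl; norm_num at hs2') hD) with k | k
    · -- `c` is inner at `p`
      have h1 : 0 < ip (s' * (Complex.I * (q - V))) (p - V) := by
        rw [ip_I, ed]; linarith
      obtain ⟨-, h2⟩ := arc_side h hp hrc hrd h1
      have h3 : σ * A < 0 := by
        by_contra hcon
        push Not at hcon
        nlinarith [mul_nonneg hcon (neg_nonneg.2 k.le)]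
      filter_upwards [(wc_tendsto y V σ).eventually h2, wc_in hVy hp.1 hσ h3] with θ h4 h5
      exact h4 h5
    · have h1 : 0 < ip (-(s' * (Complex.I * (q - V)))) (p - V) := by
        have h2 : ip (-(s' * (Complex.I * (q - V)))) (p - V) =
          - ip (s' * (Complex.I * (q - V))) (p - V) := by unfold ip; simp; ring
        rw [h2, ip_I, ed]; linarith
      have hp' : Arc T V p {d, c} := by rw [pair_comm]; exact hp
      obtain ⟨h2, -⟩ := arc_side h hp' hrd (by rw [neg_neg]; exact hrc) h1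
      have h3 : 0 < σ * A := by
        by_contra hcon
        push Not at hcon
        nlinarith [mul_nonneg (neg_nonneg.2 hcon) k.le]
      filter_upwards [(wc_tendsto y V σ).eventually h2, wc_out hVy hp.1 hσ h3] with θ h4 h5
      exact h4 h5
  -- no `b`
  have hnb : ∀ᶠ θ : ℝ in 𝓝[>] 0, b ∉ Pal U (wc y V (σ * θ)) := by
    have hkey : (σ * B) * (s * D) < 0 := by
      have h1 : (σ * B) * (s * D) * (s * A) = σ * (A * B * D) * s ^ 2 := by ring
      rw [hs2, mul_one] at h1
      by_contra hcon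
      push Not at hcon
      nlinarith [mul_nonneg hcon (neg_nonneg.2 hsA.le)]
    rcases lt_or_gt_of_ne (mul_ne_zero (show s ≠ 0 by rintro rfl; norm_num at hs2) hD) with k | k
    · -- `b` is inner at `q`
      have h1 : 0 < ip (-(s * (Complex.I * (p - V)))) (q - V) := by
        have h2 : ip (-(s * (Complex.I * (p - V)))) (q - V) =
          - ip (s * (Complex.I * (p - V))) (q - V) := by unfold ip; simp; ring
        rw [h2, ip_I]; linarith
      have hq' : Arc T V q {b, a} := by rw [pair_comm]; exact hq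
      obtain ⟨h2, -⟩ := arc_side h hq' hrb (by rw [neg_neg]; exact hra) h1
      have h3 : 0 < σ * B := by
        by_contra hcon
        push Not at hcon
        nlinarith [mul_nonneg (neg_nonneg.2 hcon) (neg_nonneg.2 k.le)]
      filter_upwards [(wc_tendsto y V σ).eventually h2, wc_out hVy hq.1 hσ h3] with θ h4 h5
      exact h4 h5
    · have h1 : 0 < ip (s * (Complex.I * (p - V))) (q - V) := by
        rw [ip_I]; linarith
      obtain ⟨-, h2⟩ := arc_side h hq hra hrb h1
      have h3 : σ * B < 0 := by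
        by_contra hcon
        push Not at hcon
        nlinarith [mul_nonneg hcon k.le]
      filter_upwards [(wc_tendsto y V σ).eventually h2, wc_in hVy hq.1 hσ h3] with θ h4 h5
      exact h4 h5
  -- conclusion
  have hev : ∀ᶠ θ : ℝ in 𝓝[>] 0, wc y V (σ * θ) ∈ closure (Ex T y {a, c}) := by
    filter_upwards [hnd, hnb, (wc_tendsto y V σ).eventually (h.nhd V)] with θ h1 h2 h3
    have h4 : T (wc y V (σ * θ)) ⊆ {a, c} := by
      intro i hi
      have h5 := h3 hi
      rw [hV.pal] at h5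
      rcases h5 with rfl | rfl | rfl | h5
      · simp
      · exact absurd (h.sub _ hi) h2
      · simp
      · rw [mem_singleton_iff] at h5
        subst h5
        exact absurd (h.sub _ hi) h1
    rcases hnear _ (dist_wc hVy _) (h4.trans hac) with h5 | h5
    · exact h5
    · exact absurd ((sub_of_closure h h5).trans h4) hQ
  exact isClosed_closure.mem_of_tendsto (wc_tendsto y V σ) hev

/-- **HE is always an arc end**: `V = (ab | cd)`, `y = (ac | ef)` at distance one: exact `ac`-arcs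
of `S(y)` end in `V`. -/
theorem he_end (h : Irr U T) {V y : ℂ} {a b c d e f : Fin 6} (hV : DPt T V a b c d)
    (hy : DPt T y a c e f) (hVy : dist V y = 1) : V ∈ closure (Ex T y {a, c}) := by
  have hyV : dist y V = 1 := by rw [dist_comm]; exact hVy
  have hQ : ¬ ({e, f} : Set (Fin 6)) ⊆ {a, c} := by
    intro h1
    rcases h1 (show e ∈ ({e, f} : Set (Fin 6)) by simp) with h2 | h2
    · exact hy.ac h2.symm
    · exact hy.bc (by rw [mem_singleton_iff] at h2; exact h2.symm)
  obtain ⟨q0, hq0⟩ := hy.arc2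
  obtain ⟨q, hq, ⟨hqV, hqV2⟩, -⟩ := arc_generic (y := V) (y' := V) hq0
  have hC : cr (q - y) (V - y) ≠ 0 := cr_ne hq.1 hVy hqV hqV2
  have hac : ({a, c} : Set (Fin 6)) ⊆ T y := by
    rw [hy.pal]
    rintro i (rfl | hi)
    · simp
    · rw [mem_singleton_iff] at hi; subst hi; simp
  have hca : ({c, a} : Set (Fin 6)) ⊆ T y := by rw [pair_comm]; exact hac
  have hnear := (pv_of_dpt h hy).near
  have hip : ∀ u : ℂ, ip (-u) (V - y) = - ip u (V - y) := fun u => by unfold ip; simp; ring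
  have hipI : ip (Complex.I * (q - y)) (V - y) = cr (q - y) (V - y) := by
    have := ip_I 1 (q - y) (V - y)
    rw [Complex.ofReal_one, one_mul, one_mul] at this
    exact this
  -- the two cases: which of the two colours is towards `V`
  have key : ∀ u : ℂ, Ray (U a) y u → Ray (U c) y (-u) → ip u (V - y) ≠ 0 →
      V ∈ closure (Ex T y {a, c}) := by
    intro u hu1 hu2 hu3
    rcases lt_or_gt_of_ne hu3 with h1 | h1
    · -- `c` is towards `V`
      have h2 := h.mx.far hu2 hVy (by rw [hip]; linarith)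
      have h3 := h.mx.near hu1 hVy h1
      have := he_aux h hV.swap hVy (Q' := {e, f}) hca
        (fun w k1 k2 => by rw [pair_comm c a]; exact hnear w k1 k2)
        (by rw [pair_comm c a]; exact hQ) h2 h3
      rwa [pair_comm c a] at this
    · have h2 := h.mx.far hu1 hVy h1
      have h3 := h.mx.near hu2 hVy (by rw [hip]; linarith)
      exact he_aux h hV hVy (Q' := {e, f}) hac hnear hQ h2 h3
  rcases h.d0 hy hq with ⟨k1, k2⟩ | ⟨k1, k2⟩
  · exact key _ k1 k2 (by rw [hipI]; exact hC)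
  · refine key _ k2 (by rw [neg_neg]; exact k1) ?_
    rw [hip, hipI]
    exact neg_ne_zero.2 hC

/-! ### apexes -/

/-- the free pair -/
theorem free_pair {V : ℂ} {P P' : Set (Fin 6)} (H : PV T V P P') {e f : Fin 6} (he : e ∉ T V)
    (hf : f ∉ T V) (hef : e ≠ f) : (T V)ᶜ = {e, f} := by
  symm
  refine Set.eq_of_subset_of_ncard_le ?_ ?_ (Set.toFinite _)
  · rintro i (rfl | hi)
    · exact he
    · rw [mem_singleton_iff] at hi; subst hi; exact hf
  · rw [H.free_two, Set.ncard_pair hef]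

theorem apex_ne {V y p : ℂ} (hVy : dist V y = 1) (hpy : dist p y = 1) :
    V ≠ y ∧ V + y ≠ 2 * p := by
  constructor
  · rintro rfl
    rw [dist_self] at hVy
    exact zero_ne_one hVy
  · intro h1
    have h2 : V - y = -(2 * (y - p)) := by linear_combination h1
    rw [dist_eq_norm, h2, norm_neg, norm_mul, ← dist_eq_norm, dist_comm, hpy] at hVy
    norm_num at hVy

/-- **E1, HE: apexes.** `V = (ab | cd)`, `y = (ac | ef)`. -/
theorem e1_apex (h : Irr U T) {V y p : ℂ} {a b c d e f : Fin 6} (hV : DPt T V a b c d)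
    (hy : DPt T y a c e f) (he : e ∉ T V) (hf : f ∉ T V) (hVy : dist V y = 1)
    (hpV : dist p V = 1) (hpy : dist p y = 1) (h3 : (T p).ncard ≤ 3) :
    p ∈ closure (Ex T y {e, f}) := by
  have H := pv_of_dpt h hV
  have K := pv_of_dpt h hy
  obtain ⟨hne, hne2⟩ := apex_ne hVy hpy
  have hVc : (T V)ᶜ = {e, f} := free_pair H he hf hy.cd
  have hmV : ∀ i : Fin 6, i ∈ T V → i ≠ e ∧ i ≠ f := fun i hi =>
    ⟨by rintro rfl; exact he hi, by rintro rfl; exact hf hi⟩
  have haV : a ∈ T V := by rw [hV.pal]; simp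
  have hbV : b ∈ T V := by rw [hV.pal]; simp
  have hcV : c ∈ T V := by rw [hV.pal]; simp
  have hdV : d ∈ T V := by rw [hV.pal]; simp
  have hby : b ∉ T y := by
    rw [hy.pal]
    rintro (k | k | k | k)
    · exact hV.ab k.symm
    · exact hV.bc k
    · exact (hmV b hbV).1 k
    · exact (hmV b hbV).2 (mem_singleton_iff.1 k)
  have hdy : d ∉ T y := by
    rw [hy.pal]
    rintro (k | k | k | k)
    · exact hV.ad k.symm
    · exact hV.cd k.symm
    · exact (hmV d hdV).1 k
    · exact (hmV d hdV).2 (mem_singleton_iff.1 k)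
  have hyc : (T y)ᶜ = {b, d} := free_pair K hby hdy hV.bd
  have hcov : ∀ i, i ∈ T V ∨ i ∈ T y := by
    intro i
    by_cases hi : i ∈ T V
    · exact Or.inl hi
    · right
      have h1 : i ∈ (T V)ᶜ := hi
      rw [hVc] at h1
      rw [hy.pal]
      rcases h1 with k | k
      · subst k; simp
      · rw [mem_singleton_iff] at k; subst k; simp
  have haR : ∀ R : Set (Fin 6), (R = {a, b} ∨ R = {c, d}) → R = {b, d} → False := by
    rintro R (rfl | rfl) h1
    · have : a ∈ ({b, d} : Set (Fin 6)) := h1 ▸ (by simp)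
      rcases this with k | k
      · exact hV.ab k
      · exact hV.ad (mem_singleton_iff.1 k)
    · have : c ∈ ({b, d} : Set (Fin 6)) := h1 ▸ (by simp)
      rcases this with k | k
      · exact hV.bc k.symm
      · exact hV.cd (mem_singleton_iff.1 k)
  rcases PV.contact h H K hcov hpV hpy hne hne2 h3 with ⟨R, hR, hRc, -⟩ | ⟨S, hS, hSc, hpS⟩ |
    ⟨R, S, -, hS, -, -, g, g', i, hg, -, hi, -, -, hSg, -⟩
  · exact (haR R hR (hRc.trans hyc)).elim
  · rwa [hSc, hVc] at hpS
  · exfalso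
    rcases hS with rfl | rfl
    · have h1 : g ∈ ({a, c} : Set (Fin 6)) := hSg ▸ (by simp)
      rcases h1 with k | k
      · exact hg (k ▸ haV)
      · exact hg ((mem_singleton_iff.1 k) ▸ hcV)
    · have h1 : i ∈ ({e, f} : Set (Fin 6)) := hSg ▸ (by simp)
      rcases h1 with k | k
      · exact (hmV i hi).1 k
      · exact (hmV i hi).2 (mem_singleton_iff.1 k)

/-- **H: apexes.** `V = (ab | cd)`, `y = (ab | ef)`. -/
theorem h_apex (h : Irr U T) {V y p : ℂ} {a b c d e f : Fin 6} (hV : DPt T V a b c d)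
    (hy : DPt T y a b e f) (he : e ∉ T V) (hf : f ∉ T V) (hVy : dist V y = 1)
    (hpV : dist p V = 1) (hpy : dist p y = 1) (h3 : (T p).ncard ≤ 3) :
    p ∈ closure (Ex T V {c, d}) ∨ p ∈ closure (Ex T y {e, f}) := by
  have H := pv_of_dpt h hV
  have K := pv_of_dpt h hy
  obtain ⟨hne, hne2⟩ := apex_ne hVy hpy
  have hVc : (T V)ᶜ = {e, f} := free_pair H he hf hy.cd
  have hmV : ∀ i : Fin 6, i ∈ T V → i ≠ e ∧ i ≠ f := fun i hi =>
    ⟨by rintro rfl; exact he hi, by rintro rfl; exact hf hi⟩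
  have haV : a ∈ T V := by rw [hV.pal]; simp
  have hbV : b ∈ T V := by rw [hV.pal]; simp
  have hcV : c ∈ T V := by rw [hV.pal]; simp
  have hdV : d ∈ T V := by rw [hV.pal]; simp
  have hcy : c ∉ T y := by
    rw [hy.pal]
    rintro (k | k | k | k)
    · exact hV.ac k.symm
    · exact hV.bc k.symm
    · exact (hmV c hcV).1 k
    · exact (hmV c hcV).2 (mem_singleton_iff.1 k)
  have hdy : d ∉ T y := by
    rw [hy.pal]
    rintro (k | k | k | k)
    · exact hV.ad k.symm
    · exact hV.bd k.symm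
    · exact (hmV d hdV).1 k
    · exact (hmV d hdV).2 (mem_singleton_iff.1 k)
  have hyc : (T y)ᶜ = {c, d} := free_pair K hcy hdy hV.cd
  have hcov : ∀ i, i ∈ T V ∨ i ∈ T y := by
    intro i
    by_cases hi : i ∈ T V
    · exact Or.inl hi
    · right
      have h1 : i ∈ (T V)ᶜ := hi
      rw [hVc] at h1
      rw [hy.pal]
      rcases h1 with k | k
      · subst k; simp
      · rw [mem_singleton_iff] at k; subst k; simp
  rcases PV.contact h H K hcov hpV hpy hne hne2 h3 with ⟨R, hR, hRc, hpR⟩ | ⟨S, hS, hSc, hpS⟩ |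
    ⟨R, S, -, hS, -, -, g, g', i, hg, -, hi, -, -, hSg, -⟩
  · left; rwa [hRc, hyc] at hpR
  · right; rwa [hSc, hVc] at hpS
  · exfalso
    rcases hS with rfl | rfl
    · have h1 : g ∈ ({a, b} : Set (Fin 6)) := hSg ▸ (by simp)
      rcases h1 with k | k
      · exact hg (k ▸ haV)
      · exact hg ((mem_singleton_iff.1 k) ▸ hbV)
    · have h1 : i ∈ ({e, f} : Set (Fin 6)) := hSg ▸ (by simp)
      rcases h1 with k | k
      · exact (hmV i hi).1 k
      · exact (hmV i hi).2 (mem_singleton_iff.1 k)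

end Vale.Agent.P032.H484
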