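import Vale.Agent.P032.H484.Polys
import Vale.Agent.P032.H169.KEnd
import Vale.Agent.P032.H802.KOf

/-!
# P032: the polygons of a world in which all links of the chains are STAY

* `QChain.pg` : an all-STAY chain is a tile with exact arcs (`Pg`);
* `ChZ.pg` : the same for a chain with names;
* `IsPZ U T g Q` : `Q` is the tile of an all-STAY chain with the inner colour `g`;
* `exists_isPZ` : every quasi-full point and its closed connecting arc are in a tile;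
* `pz_lf`, `pz_op`, `pz_dis` : the fields of 780's `PolA` for `κ = {p // IsPZ U T p.1 p.2}`;
* `Pg.frontier_cases` : the points of the frontier.
-/

open Set Filter Topology Metric

noncomputable section

namespace Vale.Agent.P032.H484

open Vale.Agent.P032.Six Vale.Agent.P032.H961 Vale.Agent.P032.S5.H767

theorem cis_ne {t c : ℝ} (h1 : t ≠ c) (h2 : |t - c| < Real.pi) (v : ℂ) :
    v + cis t ≠ v + cis c := by
  intro he
  have h3 : cr (cis c) (cis t) = 0 := by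
    rw [add_left_cancel he]; unfold cr; ring
  rw [cr_cis] at h3
  rw [Real.sin_eq_zero_iff_of_lt_of_lt (by linarith [(abs_lt.1 h2).1])
    (by linarith [(abs_lt.1 h2).2])] at h3
  exact h1 (by linarith)

/-- the inner points of the arc are not the ends -/
theorem Poly.ne_ends {k : ℕ} {U : Fin k → Set ℂ} {g : Fin k} {n : ℕ} {V : ℤ → ℂ} {α β : ℤ → ℝ}
    (P : Poly U g n V α β) (j : ℤ) {t : ℝ} (ht : t ∈ uIoo (α j) (β j)) :
    V j + cis t ≠ V (j + 1) ∧ V j + cis t ≠ V (j - 1) := by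
  have h1 := P.short j
  rw [← P.left j, ← P.right j]
  rcases le_total (α j) (β j) with h2 | h2
  · rw [uIoo_of_le h2] at ht
    rw [abs_of_nonneg (by linarith)] at h1
    exact ⟨cis_ne ht.2.ne (by rw [abs_lt]; constructor <;> linarith [ht.1, ht.2]) _,
      cis_ne ht.1.ne' (by rw [abs_lt]; constructor <;> linarith [ht.1, ht.2]) _⟩
  · rw [uIoo_of_ge h2] at ht
    rw [abs_of_nonpos (by linarith)] at h1
    exact ⟨cis_ne ht.1.ne' (by rw [abs_lt]; constructor <;> linarith [ht.1, ht.2]) _,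
      cis_ne ht.2.ne (by rw [abs_lt]; constructor <;> linarith [ht.1, ht.2]) _⟩

/-- the points of the frontier of a tile -/
theorem Pg.frontier_cases {k : ℕ} {U : Fin k → Set ℂ} {T : ℂ → Set (Fin k)} {g : Fin k} {n : ℕ}
    {V : ℤ → ℂ} {α β : ℤ → ℝ} {O : ℤ → Fin k} (P : Pg U T g n V α β O) (h : Irr U T) {x : ℂ}
    (hx : x ∈ frontier (Tl V)) :
    (∃ j, x = V j) ∨ ∃ j, ∃ t ∈ uIoo (α j) (β j), x = V j + cis t ∧ T x = {g, O j} := by
  obtain ⟨j, hj⟩ := P.on_arc h hx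
  obtain ⟨t, ht, rfl⟩ := hj
  by_cases h1 : t ∈ uIoo (α j) (β j)
  · exact Or.inr ⟨j, t, h1, rfl, P.ex j t h1⟩
  · left
    have h2 : t = α j ∨ t = β j := by
      by_contra hcon
      push Not at hcon
      apply h1
      rcases le_total (α j) (β j) with h2 | h2
      · rw [uIcc_of_le h2] at ht
        rw [uIoo_of_le h2]
        exact ⟨lt_of_le_of_ne ht.1 hcon.1.symm, lt_of_le_of_ne ht.2 hcon.2⟩
      · rw [uIcc_of_ge h2] at ht
        rw [uIoo_of_ge h2]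
        exact ⟨lt_of_le_of_ne ht.1 hcon.2.symm, lt_of_le_of_ne ht.2 hcon.1⟩
    rcases h2 with rfl | rfl
    · exact ⟨j - 1, P.poly.left j⟩
    · exact ⟨j + 1, P.poly.right j⟩

variable {U : Fin 6 → Set ℂ} {T : ℂ → Set (Fin 6)}

/-- the closed connecting arc is in a tile of the inner colour which contains an end -/
theorem arc_in_tile (h : Irr U T) {g : Fin 6} {N : ℕ} {W : ℤ → ℂ} {α β : ℤ → ℝ}
    (P : Poly U g N W α β) {V V1 V2 : ℂ} {b m n e f : Fin 6} (q : QF T V g b m n e f V1 V2)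
    (h1 : V1 ∈ Tl W) {y : ℂ} (hy : dist y V = 1) (hg : g ∈ T y) (hb : b ∈ T y) : y ∈ Tl W := by
  obtain ⟨s, t, g1, g2, g3, g4, g5⟩ := q.arc
  have hcol := QChain.col169 h g1 g4 (show g ∈ ({g, b} : Set (Fin 6)) by simp)
  refine P.sub_of_meets h (K := pt V '' Icc s t)
    (isPreconnected_Icc.image _ (continuous_pt V).continuousOn) ?_ (x := V1) ?_ h1
    (g5 y hy hg hb)
  · rintro _ ⟨u, hu, rfl⟩
    exact h.sub _ (hcol u hu)
  · rcases g3 with ⟨g3, g3'⟩ | ⟨g3, g3'⟩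
    · exact ⟨t, right_mem_Icc.2 g1.le, g3.symm⟩
    · exact ⟨s, left_mem_Icc.2 g1.le, g3.symm⟩

/-- **an all-STAY chain is a tile with exact arcs** -/
theorem pg_of_qchain (h : Irr U T) {V : ℤ → ℂ} {a b : ℤ → Fin 6} (Q : QChain T V a b)
    (hE : ∀ (c : ℂ) (R : ℝ), {z | dist z c ≤ R ∧ ∃ a b c' d, DPt T z a b c' d}.Finite)
    (hst : ∀ j, a (j + 1) = a j) (hpal : ∀ j, T (V j) ⊆ {a 0, b j, b (j + 1), b (j - 1)}) :
    ∃ (n : ℕ) (α β : ℤ → ℝ), Pg U T (a 0) n V α β b := by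
  obtain ⟨n, α, β, P, hT⟩ := Q.stay_poly h hE hst
  refine ⟨n, α, β, P, fun j t ht => ?_, fun j q hq hTq => ?_, hpal⟩
  · rcases hT j t (uIoo_sub_uIcc ht) with h1 | h1 | h1
    · exact h1
    · exact absurd h1 (P.ne_ends j ht).1
    · exact absurd h1 (P.ne_ends j ht).2
  · obtain ⟨m', n', e', f', hq'⟩ := Q.qf j
    rw [QChain.const_in hst j] at hq'
    exact arc_in_tile h P hq' (P.mem_tl h (j + 1)) hq (by rw [hTq]; simp) (by rw [hTq]; simp)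

/-- a chain with names is a `QChain` -/
theorem ChZ.qchain {nx : Fin 6 → Fin 6 → Fin 6} {V : ℤ → ℂ} {l : ℤ → Fin 6}
    {name : ℤ → Fin 6 → Fin 6} (Z : ChZ nx T V l name) :
    QChain T V (fun j => name j 0) (fun j => name j 1) :=
  ⟨fun j => ⟨_, _, _, _, Z.qf j⟩⟩

/-- the names along an all-STAY chain -/
theorem stay_names {V : ℤ → ℂ} {l : ℤ → Fin 6} {name : ℤ → Fin 6 → Fin 6}
    (Z : ChZ nxR802 T V l name) (hl : ∀ j, l j = 0 ∨ l j = 1 ∨ l j = 2) (j : ℤ) :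
    name (j + 1) 0 = name j 0 ∧ name (j + 1) 1 = name j 2 ∧ name (j + 1) 3 = name j 1 := by
  have h1 := Z.nm j
  rcases hl j with h2 | h2 | h2 <;> rw [h2] at h1 <;> exact ⟨h1 0, h1 1, h1 3⟩

theorem ChZ.pg (h : Irr U T) {V : ℤ → ℂ} {l : ℤ → Fin 6} {name : ℤ → Fin 6 → Fin 6}
    (Z : ChZ nxR802 T V l name) (hl : ∀ j, l j = 0 ∨ l j = 1 ∨ l j = 2)
    (hE : ∀ (c : ℂ) (R : ℝ), {z | dist z c ≤ R ∧ ∃ a b c' d, DPt T z a b c' d}.Finite) :
    (∀ j, name j 0 = name 0 0) ∧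
      ∃ (n : ℕ) (α β : ℤ → ℝ), Pg U T (name 0 0) n V α β (fun j => name j 1) := by
  have h0 : ∀ j, name j 0 = name 0 0 :=
    QChain.const_in (a := fun j => name j 0) fun j => (stay_names Z hl j).1
  refine ⟨h0, pg_of_qchain h (ChZ.qchain Z) hE (fun j => (stay_names Z hl j).1) fun j => ?_⟩
  have h1 := (Z.qf j).pal
  have h2 := (stay_names Z hl j).2.1
  have h3 := (stay_names Z hl (j - 1)).2.2
  rw [sub_add_cancel] at h3
  rw [h1, h0 j, ← h2, h3]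

/-- `Q` is the tile of an all-STAY chain with the inner colour `g` -/
def IsPZ (U : Fin 6 → Set ℂ) (T : ℂ → Set (Fin 6)) (g : Fin 6) (Q : Set ℂ) : Prop :=
  ∃ V l name n α β, ChZ nxR802 T V l name ∧ (∀ j, l j = 0 ∨ l j = 1 ∨ l j = 2) ∧
    (∀ j, name j 0 = g) ∧ Pg U T g n V α β (fun j => name j 1) ∧ Q = Tl V

theorem IsPZ.isPg {g : Fin 6} {Q : Set ℂ} (P : IsPZ U T g Q) :
    IsPg U T {z | ∃ a b c d, DPt T z a b c d} g Q := by
  obtain ⟨V, l, name, n, α, β, Z, -, -, P, rfl⟩ := P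
  exact ⟨n, V, α, β, _, P, fun j => ⟨_, _, _, _, (Z.qf j).dpt⟩, rfl⟩

theorem fin_dpt (hE : ∀ (c : ℂ) (R : ℝ), {z | dist z c ≤ R ∧ ∃ a b c' d, DPt T z a b c' d}.Finite)
    (c : ℂ) (r : ℝ) : ({z | ∃ a b c d, DPt T z a b c d} ∩ closedBall c r).Finite :=
  (hE c r).subset (by rintro z ⟨hz, hz'⟩; exact ⟨hz', hz⟩)

/-- **every quasi-full point is in a tile, with its closed connecting arc** -/
theorem exists_isPZ (h : Irr U T) (H : QFW T)
    (hE : ∀ (c : ℂ) (R : ℝ), {z | dist z c ≤ R ∧ ∃ a b c' d, DPt T z a b c' d}.Finite)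
    (hS : ∀ V l name, ChZ nxR802 T V l name → ∀ j, l j = 0 ∨ l j = 1 ∨ l j = 2)
    {V V1 V2 : ℂ} {a b m n e f : Fin 6} (q : QF T V a b m n e f V1 V2) :
    ∃ Q, IsPZ U T a Q ∧ V ∈ Q ∧ V1 ∈ Q ∧ V2 ∈ Q ∧
      ∀ y, dist y V = 1 → a ∈ T y → b ∈ T y → y ∈ Q := by
  obtain ⟨W, l, name, Z, w0, w1, w2, hν⟩ := exists_chZA H (V₀ := V) (V1 := V1) (V2 := V2)
    (ν := ![a, b, m, n, e, f]) q
  obtain ⟨s, Z'⟩ := Z.rel802
  have hl := hS _ _ _ Z'
  obtain ⟨h0, N, α, β, P⟩ := ChZ.pg h Z' hl hE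
  have e0 : name 0 (sw802 (s 0) 0) = a := by
    rw [hν]; cases s 0 <;> rfl
  rw [e0] at P
  simp only [e0] at h0
  refine ⟨Tl W, ⟨W, _, _, N, α, β, Z', hl, h0, P, rfl⟩, ?_, ?_, ?_, fun y hy ha hb => ?_⟩
  · rw [← w0]; exact P.poly.mem_tl h 0
  · rw [← w1]; exact P.poly.mem_tl h 1
  · rw [← w2]; exact P.poly.mem_tl h (-1)
  · exact arc_in_tile h P.poly q (by rw [← w1]; exact P.poly.mem_tl h 1) hy ha hb

/-- the index type of the polygons -/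
abbrev Pz (U : Fin 6 → Set ℂ) (T : ℂ → Set (Fin 6)) : Type :=
  {p : Fin 6 × Set ℂ // IsPZ U T p.1 p.2}

theorem pz_lf (h : Irr U T)
    (hE : ∀ (c : ℂ) (R : ℝ), {z | dist z c ≤ R ∧ ∃ a b c' d, DPt T z a b c' d}.Finite) (x : ℂ) :
    ∀ᶠ y in 𝓝 x, ∀ k : Pz U T, y ∈ k.1.2 → x ∈ k.1.2 :=
  (isPg_lf h (fin_dpt hE) x).mono fun _ hy k => hy _ _ k.2.isPg

theorem pz_op (h : Irr U T) (x : ℂ) (k : Pz U T) (hx : x ∈ k.1.2) :
    ∀ᶠ y in 𝓝 x, k.1.1 ∈ T y → y ∈ k.1.2 := isPg_op h k.2.isPg hx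

theorem pz_dis (h : Irr U T) (x : ℂ) (k l : Pz U T) (hk : x ∈ k.1.2) (hl : x ∈ l.1.2) :
    k = l := by
  obtain ⟨h1, h2⟩ := isPg_dis h k.2.isPg l.2.isPg hk hl
  exact Subtype.ext (Prod.ext h1 h2)

/-- outside the polygons there is no connecting arc -/
theorem pz_out (h : Irr U T) (H : QFW T)
    (hE : ∀ (c : ℂ) (R : ℝ), {z | dist z c ≤ R ∧ ∃ a b c' d, DPt T z a b c' d}.Finite)
    (hS : ∀ V l name, ChZ nxR802 T V l name → ∀ j, l j = 0 ∨ l j = 1 ∨ l j = 2) {x : ℂ}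
    (hx : ∀ k : Pz U T, x ∉ k.1.2) {V V1 V2 : ℂ} {a b m n e f : Fin 6}
    (q : QF T V a b m n e f V1 V2) :
    x ≠ V ∧ ¬ (dist x V = 1 ∧ a ∈ T x ∧ b ∈ T x) ∧ x ∉ closure (Ex T V {a, b}) := by
  obtain ⟨Q, hQ, h1, h2, h3, h4⟩ := exists_isPZ h H hE hS q
  have h5 : x ∉ Q := hx ⟨(a, Q), hQ⟩
  have h6 : IsClosed Q := hQ.isPg.isClosed
  refine ⟨fun h7 => h5 (h7 ▸ h1), fun h7 => h5 (h4 x h7.1 h7.2.1 h7.2.2), fun h7 => h5 ?_⟩
  refine closure_minimal (fun y hy => ?_) h6 h7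
  have e1 := ex_self hy
  exact h4 y hy.1 (by rw [e1]; simp) (by rw [e1]; simp)

end Vale.Agent.P032.H484
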