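import Vale.Agent.P032.S5.H80.Ray

/-!
# P032: a tile of constant width one is complete

`V : ℤ → ℂ` is a closed polygon with an odd number of vertices (`V (j + n) = V j`, `n` odd),
consecutive vertices at distance one; the arc of `S(V j)` from `V (j - 1)` to `V (j + 1)` (shorter
than a half circle, not a point) has the colour `g` in its palettes.  `Tl V` is the intersection of
the closed unit discs about the vertices.

* `dist_le` : two points of a connected set, `g` in all its palettes, are at distance at most one;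
  hence the vertices are in `Tl V`.
* `frontier_sub` : the frontier of `Tl V` is in the union of the arcs.
* `fill` : a set with `g` on its frontier and with no unit circle in it has its interior in `U g`.
* `tile_int`, `tile_pal`, `tile_far`, `tile_comp` : the interior of `Tl V` is a component of `U g`,
  and a point outside `Tl V` with `g` in its palette is at distance at least one from all of `Tl V`.
-/

open Set Filter Topology Metric

noncomputable section

namespace Vale.Agent.P032.H484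

open Vale.Agent.P032.Six

variable {k : ℕ} {U : Fin k → Set ℂ} {T : ℂ → Set (Fin k)}

/-! ### plane geometry -/

/-- cross product -/
def cr (a b : ℂ) : ℝ := a.re * b.im - a.im * b.re

/-- **the zigzag inequality** -/
theorem zigzag {e p f : ℂ} (he : ‖e‖ = 1) (hp : ‖p‖ = 1) (hf : ‖f‖ = 1) (h : ‖p - e - f‖ ≤ 1) :
    (1 - ip e p) * (1 + ip e f) ≤ cr e p * cr e f := by
  have h1 := ip_sq he
  have h2 := ip_sq hp
  have h3 := ip_sq hf
  have h4 : (p.re - e.re - f.re) ^ 2 + (p.im - e.im - f.im) ^ 2 ≤ 1 := by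
    have h5 := Complex.sq_norm (p - e - f)
    rw [Complex.normSq_apply] at h5
    simp only [Complex.sub_re, Complex.sub_im] at h5
    have h6 : ‖p - e - f‖ ^ 2 ≤ 1 := by
      have := norm_nonneg (p - e - f)
      nlinarith
    nlinarith
  have h7 : ip p f = ip e p * ip e f + cr e p * cr e f := by
    have : ip p f * (e.re ^ 2 + e.im ^ 2) = ip e p * ip e f + cr e p * cr e f := by
      unfold ip cr; ring
    rwa [h1, mul_one] at this
  have h8 : (p.re - e.re - f.re) ^ 2 + (p.im - e.im - f.im) ^ 2 =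
      (p.re ^ 2 + p.im ^ 2) + (e.re ^ 2 + e.im ^ 2) + (f.re ^ 2 + f.im ^ 2) - 2 * ip e p
        - 2 * ip p f + 2 * ip e f := by
    unfold ip; ring
  rw [h8, h1, h2, h3, h7] at h4
  linarith

theorem ip_le {a b : ℂ} (ha : ‖a‖ = 1) (hb : ‖b‖ = 1) : |ip a b| ≤ 1 := by
  have h1 := ip_sq ha
  have h2 := ip_sq hb
  have h3 : ip a b ^ 2 + cr a b ^ 2 = 1 := by
    have : ip a b ^ 2 + cr a b ^ 2 = (a.re ^ 2 + a.im ^ 2) * (b.re ^ 2 + b.im ^ 2) := by
      unfold ip cr; ring
    rw [this, h1, h2, mul_one]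
  rw [← sq_le_one_iff_abs_le_one]
  nlinarith [sq_nonneg (cr a b)]

theorem ip_lt {a b : ℂ} (ha : ‖a‖ = 1) (hb : ‖b‖ = 1) (h : a ≠ b) : ip a b < 1 := by
  rcases lt_or_eq_of_le (abs_le.1 (ip_le ha hb)).2 with h1 | h1
  · exact h1
  · exfalso
    have h2 := ip_sq ha
    have h3 := ip_sq hb
    have h4 : (a.re - b.re) ^ 2 + (a.im - b.im) ^ 2 = 0 := by
      unfold ip at h1; nlinarith
    apply h
    have h5 : a.re - b.re = 0 := by nlinarith [sq_nonneg (a.re - b.re), sq_nonneg (a.im - b.im)]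
    have h6 : a.im - b.im = 0 := by nlinarith [sq_nonneg (a.re - b.re), sq_nonneg (a.im - b.im)]
    exact Complex.ext (by linarith) (by linarith)

/-- all points `p` of the circle in the unit discs of the tile are on the same side -/
theorem side {e u p f : ℂ} (he : ‖e‖ = 1) (hu : ‖u‖ = 1) (hp : ‖p‖ = 1) (hf : ‖f‖ = 1)
    (hue : u ≠ e) (hfe : f ≠ -e) (h1 : ‖u - e - f‖ ≤ 1) (h2 : ‖p - e - f‖ ≤ 1) :
    0 ≤ cr e p * cr e u := by
  have k1 := zigzag he hu hf h1
  have k2 := zigzag he hp hf h2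
  have k3 : 0 < 1 - ip e u := by linarith [ip_lt he hu hue.symm]
  have k4 : 0 < 1 + ip e f := by
    have : ip (-e) f < 1 := ip_lt (by rwa [norm_neg]) hf hfe.symm
    have h5 : ip (-e) f = - ip e f := by unfold ip; simp; ring
    linarith
  have k5 : 0 ≤ 1 - ip e p := by linarith [(abs_le.1 (ip_le he hp)).2]
  have k6 : 0 < cr e u * cr e f := lt_of_lt_of_le (mul_pos k3 k4) k1
  have k7 : 0 ≤ cr e p * cr e f := le_trans (mul_nonneg k5 k4.le) k2
  have k8 : 0 ≤ (cr e p * cr e u) * (cr e f) ^ 2 := by nlinarith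
  have k9 : 0 < (cr e f) ^ 2 := by
    have : cr e f ≠ 0 := by rintro h; rw [h, mul_zero] at k6; exact lt_irrefl _ k6
    positivity
  exact nonneg_of_mul_nonneg_left k8 k9

theorem norm_cis (t : ℝ) : ‖cis t‖ = 1 := by
  unfold cis
  exact Complex.norm_exp_ofReal_mul_I t

theorem cr_cis (s t : ℝ) : cr (cis s) (cis t) = Real.sin (t - s) := by
  unfold cr
  rw [cis_re, cis_im, cis_re, cis_im, Real.sin_sub]
  ring

/-- a unit vector in the cone of two directions -/
theorem arc_of_sides {α β : ℝ} {p : ℂ} (hp : ‖p‖ = 1) (h0 : α < β) (h1 : β - α < Real.pi)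
    (ha : 0 ≤ cr (cis β) p * cr (cis β) (cis α)) (hb : 0 ≤ cr (cis α) p * cr (cis α) (cis β)) :
    ∃ t ∈ Icc α β, p = cis t := by
  obtain ⟨t0, ht0⟩ : ∃ t0 : ℝ, p = cis t0 := by
    refine ⟨Complex.arg p, ?_⟩
    have := Complex.norm_mul_exp_arg_mul_I p
    rw [hp, Complex.ofReal_one, one_mul] at this
    exact this.symm
  -- move `t0` into `[α, α + 2 π)`
  obtain ⟨m, hm⟩ : ∃ m : ℤ, toIcoMod Real.two_pi_pos α t0 = t0 - m • (2 * Real.pi) :=
    ⟨toIcoDiv Real.two_pi_pos α t0, rfl⟩
  set t := toIcoMod Real.two_pi_pos α t0 with ht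
  have hmem : t ∈ Ico α (α + 2 * Real.pi) := toIcoMod_mem_Ico Real.two_pi_pos α t0
  have hpt : p = cis t := by
    rw [ht0, hm]
    unfold cis
    rw [Complex.exp_eq_exp_iff_exists_int]
    refine ⟨m, ?_⟩
    simp only [zsmul_eq_mul]
    push_cast
    ring
  rw [hpt, cr_cis, cr_cis] at ha hb
  have hs : 0 < Real.sin (β - α) := Real.sin_pos_of_pos_of_lt_pi (by linarith) h1
  have ha' : 0 ≤ Real.sin (β - t) := by
    have e1 : Real.sin (t - β) = - Real.sin (β - t) := by rw [← Real.sin_neg]; congr 1; ring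
    have e2 : Real.sin (α - β) = - Real.sin (β - α) := by rw [← Real.sin_neg]; congr 1; ring
    rw [e1, e2, neg_mul_neg] at ha
    exact nonneg_of_mul_nonneg_left ha hs
  have hb' : 0 ≤ Real.sin (t - α) := nonneg_of_mul_nonneg_left hb hs
  have htp : t - α ≤ Real.pi := by
    by_contra hcon
    push Not at hcon
    have : Real.sin (t - α - 2 * Real.pi) < 0 :=
      Real.sin_neg_of_neg_of_neg_pi_lt (by linarith [hmem.2]) (by linarith)
    rw [Real.sin_sub_two_pi] at this
    linarith
  refine ⟨t, ⟨hmem.1, ?_⟩, hpt⟩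
  by_contra hcon
  push Not at hcon
  have : Real.sin (β - t) < 0 :=
    Real.sin_neg_of_neg_of_neg_pi_lt (by linarith) (by linarith)
  linarith

/-! ### connected sets with one colour -/

/-- **two points of a connected set, `g` in all palettes, are at distance at most one** -/
theorem dist_le (h : Irr U T) {g : Fin k} {K : Set ℂ} (hK : IsPreconnected K)
    (hg : ∀ x ∈ K, g ∈ Pal U x) {x y : ℂ} (hx : x ∈ K) (hy : y ∈ K) : dist x y ≤ 1 := by
  by_contra hcon
  push Not at hcon
  have e1 : ∀ᶠ w in 𝓝 x, 1 < dist w y :=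
    (continuous_id.dist continuous_const).continuousAt.eventually (Ioi_mem_nhds hcon)
  have e2 : ∀ᶠ w in 𝓝 x, dist w x < 1 :=
    (continuous_id.dist continuous_const).continuousAt.eventually
      (Iio_mem_nhds (by simp))
  obtain ⟨w, ⟨h1, h2⟩, hw⟩ := mem_closure_iff_nhds.1 (hg x hx) _ (e1.and e2)
  have hc : ContinuousOn (fun r => dist w r) K := by fun_prop
  obtain ⟨r, hr, hr1⟩ := hK.intermediate_value hx hy hc
    (show (1 : ℝ) ∈ Icc (dist w x) (dist w y) from ⟨h2.le, h1.le⟩)
  exact h.mx.notMem' hw hr1 (hg r hr)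

/-- a connected set with points inside and outside `Q` meets the frontier -/
theorem meets_frontier {K Q : Set ℂ} (hK : IsPreconnected K) {x y : ℂ} (hx : x ∈ K)
    (hxQ : x ∈ interior Q) (hy : y ∈ K) (hyQ : y ∉ Q) : ∃ r ∈ K, r ∈ frontier Q := by
  by_contra hcon
  push Not at hcon
  have hcov : K ⊆ interior Q ∪ (closure Q)ᶜ := by
    intro r hr
    by_cases h1 : r ∈ interior Q
    · exact Or.inl h1
    · refine Or.inr fun h2 => hcon r hr ⟨h2, h1⟩
  have hy2 : y ∈ (closure Q)ᶜ := by
    rcases hcov hy with h1 | h1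
    · exact absurd (interior_subset h1) hyQ
    · exact h1
  obtain ⟨r, -, h1, h2⟩ := hK _ _ isOpen_interior isClosed_closure.isOpen_compl hcov
    ⟨x, hx, hxQ⟩ ⟨y, hy, hy2⟩
  exact h2 (subset_closure (interior_subset h1))

/-- **no holes** -/
theorem fill (h : Irr U T) {g : Fin k} {Q : Set ℂ} (hQ : ∀ x ∈ frontier Q, g ∈ Pal U x)
    (hc : ∀ c, ∃ v, dist c v = 1 ∧ v ∉ Q) : interior Q ⊆ U g := by
  intro w hw
  refine h.max g w fun q hq hwq => ?_
  have e : ∀ᶠ q' in 𝓝 q, w + (q' - q) ∈ interior Q := by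
    have h1 : ContinuousAt (fun q' : ℂ => w + (q' - q)) q := by fun_prop
    refine h1.eventually (isOpen_interior.mem_nhds ?_)
    simpa using hw
  obtain ⟨q', h1, h2⟩ := mem_closure_iff_nhds.1 hq _ e
  have h3 : dist (w + (q' - q)) q' = 1 := by
    rw [dist_eq_norm, show w + (q' - q) - q' = w - q by ring, ← dist_eq_norm]; exact hwq
  have hcon : IsPreconnected (sphere q' (1 : ℝ)) :=
    isPreconnected_sphere (by rw [Complex.rank_real_complex]; exact Cardinal.one_lt_two) q' 1
  obtain ⟨v, hv, hvQ⟩ := hc q'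
  obtain ⟨r, hr1, hr2⟩ := meets_frontier hcon (mem_sphere.2 h3) h1
    (mem_sphere.2 (by rw [dist_comm]; exact hv)) hvQ
  exact h.mx.notMem' h2 (by rw [mem_sphere, dist_comm] at hr1; exact hr1) (hQ r hr2)

/-! ### the tile -/

/-- intersection of the closed unit discs about the vertices -/
def Tl (V : ℤ → ℂ) : Set ℂ := {x | ∀ j, dist x (V j) ≤ 1}

/-- a closed polygon with an odd number `n` of vertices, sides of length one, and the colour `g` on
the arc of `S(V j)` between `V (j - 1)` and `V (j + 1)` -/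
structure Poly (U : Fin k → Set ℂ) (g : Fin k) (n : ℕ) (V : ℤ → ℂ) (α β : ℤ → ℝ) : Prop where
  odd : Odd n
  per : ∀ j, V (j + n) = V j
  left : ∀ j, V j + cis (α j) = V (j - 1)
  right : ∀ j, V j + cis (β j) = V (j + 1)
  ne : ∀ j, α j ≠ β j
  short : ∀ j, |β j - α j| < Real.pi
  col : ∀ j, ∀ t ∈ uIcc (α j) (β j), g ∈ Pal U (V j + cis t)

variable {g : Fin k} {n : ℕ} {V : ℤ → ℂ} {α β : ℤ → ℝ}

/-- the arc of `S(V j)` -/
def Gar (V : ℤ → ℂ) (α β : ℤ → ℝ) (j : ℤ) : Set ℂ := (fun t => V j + cis t) '' uIcc (α j) (β j)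

theorem Poly.gar_pal (P : Poly U g n V α β) (j : ℤ) : ∀ x ∈ Gar V α β j, g ∈ Pal U x := by
  rintro x ⟨t, ht, rfl⟩
  exact P.col j t ht

theorem Poly.dist_succ (P : Poly U g n V α β) (j : ℤ) : dist (V j) (V (j + 1)) = 1 := by
  rw [← P.right j, dist_eq_norm, show V j - (V j + cis (β j)) = - cis (β j) by ring, norm_neg]
  exact norm_cis _

theorem Poly.dist_pred (P : Poly U g n V α β) (j : ℤ) : dist (V j) (V (j - 1)) = 1 := by
  rw [← P.left j, dist_eq_norm, show V j - (V j + cis (α j)) = - cis (α j) by ring, norm_neg]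
  exact norm_cis _

/-- the arcs with even index are a connected set with all vertices -/
theorem Poly.conn (P : Poly U g n V α β) :
    IsPreconnected (⋃ m : ℤ, Gar V α β (2 * m)) ∧ ∀ j, V j ∈ ⋃ m : ℤ, Gar V α β (2 * m) := by
  have hodd : ∀ m : ℤ, V (2 * m + 1) ∈ Gar V α β (2 * m) := fun m =>
    ⟨β (2 * m), right_mem_uIcc, P.right _⟩
  have hodd' : ∀ m : ℤ, V (2 * m - 1) ∈ Gar V α β (2 * m) := fun m =>
    ⟨α (2 * m), left_mem_uIcc, P.left _⟩
  refine ⟨IsPreconnected.iUnion_of_chain (fun m => ?_) (fun m => ?_), fun j => ?_⟩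
  · refine (isPreconnected_uIcc).image _ ?_
    exact (continuous_const.add continuous_cis).continuousOn
  · refine ⟨V (2 * m + 1), hodd m, ?_⟩
    have h1 := hodd' (m + 1)
    rw [show 2 * (m + 1) - 1 = 2 * m + 1 by ring] at h1
    exact h1
  · rcases Int.even_or_odd' j with ⟨m, hm | hm⟩
    · obtain ⟨l, hl⟩ := P.odd
      rw [← P.per j]
      refine mem_iUnion.2 ⟨m + l, ?_⟩
      have h1 := hodd (m + l)
      have h2 : j + (n : ℤ) = 2 * (m + l) + 1 := by rw [hm, hl]; push_cast; ring
      rw [h2]; exact h1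
    · rw [hm]
      exact mem_iUnion.2 ⟨m, hodd m⟩

theorem Poly.dist_le (P : Poly U g n V α β) (h : Irr U T) (i j : ℤ) : dist (V i) (V j) ≤ 1 := by
  obtain ⟨h1, h2⟩ := P.conn
  refine H484.dist_le (g := g) h h1 (fun x hx => ?_) (h2 i) (h2 j)
  obtain ⟨m, hm⟩ := mem_iUnion.1 hx
  exact P.gar_pal _ x hm

theorem Poly.mem_tl (P : Poly U g n V α β) (h : Irr U T) (j : ℤ) : V j ∈ Tl V :=
  fun i => P.dist_le h j i

theorem isClosed_tl (V : ℤ → ℂ) : IsClosed (Tl V) := by
  have : Tl V = ⋂ j, closedBall (V j) 1 := by ext x; simp [Tl]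
  rw [this]
  exact isClosed_iInter fun j => isClosed_closedBall

theorem convex_tl (V : ℤ → ℂ) : Convex ℝ (Tl V) := by
  have : Tl V = ⋂ j, closedBall (V j) 1 := by ext x; simp [Tl]
  rw [this]
  exact convex_iInter fun j => convex_closedBall _ _

theorem Poly.per_mul (P : Poly U g n V α β) (j m : ℤ) : V (j + m * n) = V j := by
  induction m using Int.induction_on with
  | zero => simp
  | succ m ih => rw [← ih, ← P.per (j + m * n)]; congr 1; ring
  | pred m ih => rw [← ih, ← P.per (j + (-m - 1) * n)]; congr 1; ring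

theorem Poly.finite (P : Poly U g n V α β) : (range V).Finite := by
  have h0 : (0 : ℤ) < n := by
    have := P.odd.pos
    exact_mod_cast this
  refine ((Set.finite_Ico (0 : ℤ) n).image V).subset ?_
  rintro x ⟨j, rfl⟩
  refine ⟨j % n, ⟨Int.emod_nonneg _ h0.ne', Int.emod_lt_of_pos _ h0⟩, ?_⟩
  have h1 := P.per_mul (j % n) (j / n)
  rw [← h1]; congr 1
  have := Int.emod_add_mul_ediv j n
  linarith [mul_comm (n : ℤ) (j / n)]

/-- the open version of the tile is in the interior -/
theorem Poly.mem_int (P : Poly U g n V α β) {x : ℂ} (hx : ∀ j, dist x (V j) < 1) :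
    x ∈ interior (Tl V) := by
  have h1 : IsOpen {x : ℂ | ∀ v ∈ range V, dist x v < 1} := by
    have : {x : ℂ | ∀ v ∈ range V, dist x v < 1} = ⋂ v ∈ range V, ball v 1 := by
      ext x; simp
    rw [this]
    exact P.finite.isOpen_biInter fun v _ => isOpen_ball
  refine mem_interior.2 ⟨_, fun y hy j => (hy (V j) ⟨j, rfl⟩).le, h1, ?_⟩
  rintro v ⟨j, rfl⟩
  exact hx j

/-- **the frontier of the tile is in the union of the arcs** -/
theorem Poly.frontier_sub (P : Poly U g n V α β) (h : Irr U T) :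
    frontier (Tl V) ⊆ ⋃ j, Gar V α β j := by
  intro y hy
  have hyT : y ∈ Tl V := (isClosed_tl V).frontier_subset hy
  obtain ⟨j, hj⟩ : ∃ j, dist y (V j) = 1 := by
    by_contra hcon
    push Not at hcon
    exact hy.2 (P.mem_int fun j => lt_of_le_of_ne (hyT j) (hcon j))
  refine mem_iUnion.2 ⟨j, ?_⟩
  have hp : ‖y - V j‖ = 1 := by rw [← dist_eq_norm]; exact hj
  -- the two sides
  have e1 : V (j + 1) + cis (β (j + 1)) = V (j + 2) := by
    rw [P.right (j + 1)]; congr 1; ring
  have e2 : V (j + 1) + cis (α (j + 1)) = V j := by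
    rw [P.left (j + 1)]; congr 1; ring
  have e3 : V (j - 1) + cis (α (j - 1)) = V (j - 2) := by
    rw [P.left (j - 1)]; congr 1; ring
  have e4 : V (j - 1) + cis (β (j - 1)) = V j := by
    rw [P.right (j - 1)]; congr 1; ring
  have cne : ∀ i, cis (α i) ≠ cis (β i) := by
    intro i hi
    have h1 : Real.sin (β i - α i) = 0 := by
      rw [← cr_cis, hi]; unfold cr; ring
    rcases lt_or_gt_of_ne (P.ne i) with h2 | h2
    · have := Real.sin_pos_of_pos_of_lt_pi (x := β i - α i) (by linarith)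
        (lt_of_abs_lt (P.short i))
      linarith
    · have := Real.sin_neg_of_neg_of_neg_pi_lt (x := β i - α i) (by linarith)
        (by linarith [(abs_lt.1 (P.short i)).1])
      linarith
  have s1 : 0 ≤ cr (cis (β j)) (y - V j) * cr (cis (β j)) (cis (α j)) := by
    refine side (f := cis (β (j + 1))) (norm_cis _) (norm_cis _) hp (norm_cis _) (cne j) ?_ ?_ ?_
    · intro h1
      apply cne (j + 1)
      have h2 : cis (α (j + 1)) = - cis (β j) := by
        have h3 := P.right j
        linear_combination e2 + h3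
      rw [h1, h2]
    · have h2 : cis (α j) - cis (β j) - cis (β (j + 1)) = V (j - 1) - V (j + 2) := by
        linear_combination P.left j - P.right j - e1
      rw [h2, ← dist_eq_norm]
      exact P.dist_le h _ _
    · have h2 : y - V j - cis (β j) - cis (β (j + 1)) = y - V (j + 2) := by
        linear_combination - P.right j - e1
      rw [h2, ← dist_eq_norm]
      exact hyT _
  have s2 : 0 ≤ cr (cis (α j)) (y - V j) * cr (cis (α j)) (cis (β j)) := by
    refine side (f := cis (α (j - 1))) (norm_cis _) (norm_cis _) hp (norm_cis _) (cne j).symm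
      ?_ ?_ ?_
    · intro h1
      apply cne (j - 1)
      have h2 : cis (β (j - 1)) = - cis (α j) := by
        have h3 := P.left j
        linear_combination e4 + h3
      rw [h1, h2]
    · have h2 : cis (β j) - cis (α j) - cis (α (j - 1)) = V (j + 1) - V (j - 2) := by
        linear_combination P.right j - P.left j - e3
      rw [h2, ← dist_eq_norm]
      exact P.dist_le h _ _
    · have h2 : y - V j - cis (α j) - cis (α (j - 1)) = y - V (j - 2) := by
        linear_combination - P.left j - e3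
      rw [h2, ← dist_eq_norm]
      exact hyT _
  have hfin : ∃ t ∈ uIcc (α j) (β j), y - V j = cis t := by
    rcases lt_or_gt_of_ne (P.ne j) with h2 | h2
    · rw [uIcc_of_le h2.le]
      exact arc_of_sides hp h2 (lt_of_abs_lt (P.short j)) s1 s2
    · rw [uIcc_of_ge h2.le]
      exact arc_of_sides hp h2 (by linarith [(abs_lt.1 (P.short j)).1]) s2 s1
  obtain ⟨t, ht, hyt⟩ := hfin
  exact ⟨t, ht, by simp only; rw [← hyt]; ring⟩

/-- the colour is in the palettes of the frontier -/
theorem Poly.frontier_pal (P : Poly U g n V α β) (h : Irr U T) :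
    ∀ x ∈ frontier (Tl V), g ∈ Pal U x := by
  intro x hx
  obtain ⟨j, hj⟩ := mem_iUnion.1 (P.frontier_sub h hx)
  exact P.gar_pal j x hj

/-- no unit circle is in the tile -/
theorem Poly.circle (P : Poly U g n V α β) (c : ℂ) : ∃ v, dist c v = 1 ∧ v ∉ Tl V := by
  obtain ⟨j, hj⟩ : ∃ j, c ≠ V j := by
    by_contra hcon
    push Not at hcon
    have h1 := P.dist_succ 0
    rw [← hcon 0, ← hcon (0 + 1), dist_self] at h1
    exact zero_ne_one h1
  have hn : ‖c - V j‖ ≠ 0 := norm_ne_zero_iff.2 (sub_ne_zero.2 hj)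
  refine ⟨c + ((1 / ‖c - V j‖ : ℝ) : ℂ) * (c - V j), ?_, fun hcon => ?_⟩
  · rw [dist_eq_norm, show c - (c + ((1 / ‖c - V j‖ : ℝ) : ℂ) * (c - V j)) =
      -(((1 / ‖c - V j‖ : ℝ) : ℂ) * (c - V j)) by ring, norm_neg, norm_mul, Complex.norm_real,
      Real.norm_of_nonneg (by positivity)]
    field_simp
  · have h1 := hcon j
    rw [dist_eq_norm, show c + ((1 / ‖c - V j‖ : ℝ) : ℂ) * (c - V j) - V j =
      ((1 + 1 / ‖c - V j‖ : ℝ) : ℂ) * (c - V j) by push_cast; ring, norm_mul, Complex.norm_real,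
      Real.norm_of_nonneg (by positivity)] at h1
    have h2 : (1 + 1 / ‖c - V j‖) * ‖c - V j‖ = ‖c - V j‖ + 1 := by field_simp
    rw [h2] at h1
    have h3 := norm_nonneg (c - V j)
    have h4 : 0 < ‖c - V j‖ := lt_of_le_of_ne h3 (Ne.symm hn)
    linarith

/-- **the interior of the tile has the colour `g`** -/
theorem Poly.tile_int (P : Poly U g n V α β) (h : Irr U T) : interior (Tl V) ⊆ U g :=
  fill h (P.frontier_pal h) P.circle

theorem Poly.tile_pal (P : Poly U g n V α β) (h : Irr U T) : ∀ x ∈ Tl V, g ∈ Pal U x := by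
  intro x hx
  by_cases h1 : x ∈ interior (Tl V)
  · exact subset_closure (P.tile_int h h1)
  · exact P.frontier_pal h x ⟨subset_closure hx, h1⟩

/-- **(W)**: outside the tile the colour `g` is at distance at least one from all of the tile -/
theorem Poly.tile_far (P : Poly U g n V α β) (h : Irr U T) {y : ℂ} (hy : y ∉ Tl V)
    (hg : g ∈ Pal U y) : ∀ q ∈ Tl V, 1 ≤ dist y q := by
  intro q hq
  by_contra hcon
  push Not at hcon
  obtain ⟨j, hj⟩ : ∃ j, 1 < dist y (V j) := by
    by_contra h1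
    push Not at h1
    exact hy h1
  have e1 : ∀ᶠ w in 𝓝 y, 1 < dist w (V j) :=
    (continuous_id.dist continuous_const).continuousAt.eventually (Ioi_mem_nhds hj)
  have e2 : ∀ᶠ w in 𝓝 y, dist w q < 1 :=
    (continuous_id.dist continuous_const).continuousAt.eventually (Iio_mem_nhds hcon)
  obtain ⟨w, ⟨h1, h2⟩, hw⟩ := mem_closure_iff_nhds.1 hg _ (e1.and e2)
  have hc : ContinuousOn (fun r => dist w r) (Tl V) := by fun_prop
  obtain ⟨r, hr, hr1⟩ := (convex_tl V).isPreconnected.intermediate_value hq (P.mem_tl h j) hc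
    (show (1 : ℝ) ∈ Icc (dist w q) (dist w (V j)) from ⟨h2.le, h1.le⟩)
  exact h.mx.notMem' hw hr1 (P.tile_pal h r hr)

/-- **(W)** for `T` -/
theorem Poly.tile_farT (P : Poly U g n V α β) (h : Irr U T) {y : ℂ} (hy : y ∉ Tl V)
    (hg : g ∈ T y) : ∀ q ∈ Tl V, 1 ≤ dist y q := P.tile_far h hy (h.sub y hg)

/-- the interior points are at distance more than one -/
theorem Poly.tile_far_lt (P : Poly U g n V α β) (h : Irr U T) {y : ℂ} (hy : y ∉ Tl V)
    (hg : g ∈ Pal U y) {q : ℂ} (hq : q ∈ interior (Tl V)) : 1 < dist y q := by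
  refine lt_of_le_of_ne (P.tile_far h hy hg q (interior_subset hq)) fun h1 => ?_
  exact h.mx.notMem' (P.tile_int h hq) (by rw [dist_comm]; exact h1.symm) hg

/-- the distance of two points of the tile is at most one -/
theorem Poly.tile_diam (P : Poly U g n V α β) (h : Irr U T) {x y : ℂ} (hx : x ∈ Tl V)
    (hy : y ∈ Tl V) : dist x y ≤ 1 :=
  H484.dist_le h (convex_tl V).isPreconnected (P.tile_pal h) hx hy

/-- the tile is complete -/
theorem Poly.complete (P : Poly U g n V α β) (h : Irr U T) :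
    Tl V = {x | ∀ q ∈ Tl V, dist x q ≤ 1} :=
  Subset.antisymm (fun _ hx _ hq => P.tile_diam h hx hq) fun _ hx j => hx _ (P.mem_tl h j)

/-- the interior of the tile is the component of `U g` -/
theorem Poly.tile_comp (P : Poly U g n V α β) (h : Irr U T) {K : Set ℂ} (hK : IsPreconnected K)
    (hKg : K ⊆ U g) {x : ℂ} (hx : x ∈ K) (hxT : x ∈ interior (Tl V)) : K ⊆ interior (Tl V) := by
  have key : ∀ r ∈ K, r ∉ frontier (Tl V) := by
    intro r hr hrf
    have h1 : ∀ᶠ y in 𝓝 r, y ∈ U g := (h.mx.isOpen g).mem_nhds (hKg hr)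
    have h2 : ∃ᶠ y in 𝓝 r, y ∉ Tl V := by
      have h3 : r ∈ closure (Tl V)ᶜ := by
        rw [closure_compl]; exact hrf.2
      exact mem_closure_iff_frequently.1 h3
    obtain ⟨y, hy, h4, h5⟩ := (h2.and_eventually (h1.and (ball_mem_nhds r one_pos))).exists
    have h6 := P.tile_far h hy (subset_closure h4) r ((isClosed_tl V).frontier_subset hrf)
    have h7 : dist y r < 1 := h5
    linarith
  intro y hy
  by_contra hcon
  have hyT : y ∉ Tl V := fun h1 => key y hy ⟨subset_closure h1, hcon⟩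
  obtain ⟨r, hr, hrf⟩ := meets_frontier hK hx hxT hy hyT
  exact key r hr hrf

end Vale.Agent.P032.H484
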