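import Vale.Agent.P032.H484.TileB

/-!
# P032: tiles with exact arcs: disjoint, locally finite

`Pg U T g n V α β O` : a closed polygon (`Poly`) whose open arc about `V j` has the exact palette
`{g, O j}`; the points of `S(V j)` with this palette are in the tile; the palette of `V j` is within
`{g, O j, O (j + 1), O (j - 1)}`.

* `Pg.T_frontier` : the colour `g` is in the palettes `T` on the frontier;
* `Pg.dis` : **two tiles which meet are equal, and have the same colour**;
* `IsPg`, `isPg_dis`, `isPg_lf` (locally finite), `isPg_op`.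
-/

open Set Filter Topology Metric

noncomputable section

namespace Vale.Agent.P032.H484

open Vale.Agent.P032.Six

variable {k : ℕ} {U : Fin k → Set ℂ} {T : ℂ → Set (Fin k)} {g g' : Fin k} {n n' : ℕ}
  {V V' : ℤ → ℂ} {α β α' β' : ℤ → ℝ} {O O' : ℤ → Fin k}

/-- a tile with exact arcs -/
structure Pg (U : Fin k → Set ℂ) (T : ℂ → Set (Fin k)) (g : Fin k) (n : ℕ) (V : ℤ → ℂ)
    (α β : ℤ → ℝ) (O : ℤ → Fin k) : Prop where
  poly : Poly U g n V α β
  ex : ∀ j, ∀ t ∈ uIoo (α j) (β j), T (V j + cis t) = {g, O j}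
  only : ∀ j q, dist q (V j) = 1 → T q = {g, O j} → q ∈ Tl V
  pal : ∀ j, T (V j) ⊆ {g, O j, O (j + 1), O (j - 1)}

/-- the midpoint of two points of a tile is in the interior -/
theorem Poly.midpoint_int (P : Poly U g n V α β) {a b : ℂ} (ha : a ∈ Tl V) (hb : b ∈ Tl V)
    (hab : a ≠ b) : midpoint ℝ a b ∈ interior (Tl V) := by
  refine P.mem_int fun j => ?_
  have h1 : midpoint ℝ a b ∈ interior (closedBall (V j) 1) :=
    (strictConvex_closedBall ℝ (V j) 1).openSegment_subset (ha j) (hb j) hab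
      (by rw [midpoint_eq_smul_add, openSegment]; exact ⟨1 / 2, 1 / 2, by norm_num, by norm_num,
        by norm_num, by rw [← smul_add]; norm_num⟩)
  rw [interior_closedBall _ one_ne_zero] at h1
  exact h1

/-- the arc is in the tile -/
theorem Poly.gar_sub (P : Poly U g n V α β) (h : Irr U T) (j : ℤ) : Gar V α β j ⊆ Tl V :=
  P.sub_of_meets h
    (isPreconnected_uIcc.image _ (by
      exact (continuous_const.add continuous_cis).continuousOn))
    (P.gar_pal j) (x := V (j + 1)) ⟨β j, right_mem_uIcc, P.right j⟩ (P.mem_tl h (j + 1))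

theorem Poly.arc_mem (P : Poly U g n V α β) (h : Irr U T) (j : ℤ) {t : ℝ}
    (ht : t ∈ uIcc (α j) (β j)) : V j + cis t ∈ Tl V := P.gar_sub h j ⟨t, ht, rfl⟩

/-- the arc is in the frontier -/
theorem Poly.gar_frontier (P : Poly U g n V α β) (h : Irr U T) (j : ℤ) :
    Gar V α β j ⊆ frontier (Tl V) := by
  rintro x ⟨t, ht, rfl⟩
  refine ⟨subset_closure (P.arc_mem h j ht), fun hx => ?_⟩
  have h1 := P.int_lt_vertex h hx j
  rw [dist_eq_norm, show V j + cis t - V j = cis t by ring, norm_cis] at h1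
  exact lt_irrefl _ h1

theorem closure_uIoo' {a b : ℝ} (h : a ≠ b) : closure (uIoo a b) = uIcc a b := by
  unfold uIoo uIcc
  refine closure_Ioo ?_
  intro h1
  rcases le_total a b with h2 | h2
  · rw [inf_eq_left.2 h2, sup_eq_right.2 h2] at h1; exact h h1
  · rw [inf_eq_right.2 h2, sup_eq_left.2 h2] at h1; exact h h1.symm

/-- the colours on the closed arc -/
theorem Pg.T_arc (P : Pg U T g n V α β O) (h : Irr U T) (j : ℤ) {t : ℝ}
    (ht : t ∈ uIcc (α j) (β j)) : g ∈ T (V j + cis t) ∧ O j ∈ T (V j + cis t) := by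
  have key : ∀ i, (i = g ∨ i = O j) → i ∈ T (V j + cis t) := by
    intro i hi
    have hc : Continuous fun s : ℝ => V j + cis s := continuous_const.add continuous_cis
    have h1 : closure (uIoo (α j) (β j)) ⊆ (fun s : ℝ => V j + cis s) ⁻¹' {p | i ∈ T p} := by
      refine closure_minimal (fun s hs => ?_) ((h.closed i).preimage hc)
      change i ∈ T (V j + cis s)
      rw [P.ex j s hs]
      rcases hi with rfl | rfl
      · exact Or.inl rfl
      · exact Or.inr rfl
    rw [closure_uIoo' (P.poly.ne j)] at h1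
    exact h1 ht
  exact ⟨key _ (Or.inl rfl), key _ (Or.inr rfl)⟩

/-- the colour `g` is in the palettes of the frontier -/
theorem Pg.T_frontier (P : Pg U T g n V α β O) (h : Irr U T) {x : ℂ}
    (hx : x ∈ frontier (Tl V)) : g ∈ T x := by
  obtain ⟨j, hj⟩ := mem_iUnion.1 (P.poly.frontier_sub h hx)
  obtain ⟨t, ht, rfl⟩ := hj
  exact (P.T_arc h j ht).1

/-- the frontier of a tile does not meet the interior of a tile -/
theorem Pg.front_int (P : Pg U T g n V α β O) (P' : Pg U T g' n' V' α' β' O') (h : Irr U T)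
    {x : ℂ} (hx : x ∈ frontier (Tl V')) : x ∉ interior (Tl V) := by
  intro hxi
  have h1 : x ∈ U g := P.poly.tile_int h hxi
  have h2 : x ∉ XX U := fun hX => hX g h1
  have h3 : x ∈ U g' := h.off x h2 g' (P'.T_frontier h hx)
  obtain ⟨j, hj⟩ := mem_iUnion.1 (P'.poly.frontier_sub h hx)
  obtain ⟨t, ht, rfl⟩ := hj
  refine h.mx.notMem' h3 (y := V' j) ?_ (P'.poly.tile_pal h _ (P'.poly.mem_tl h j))
  rw [dist_eq_norm, show V' j + cis t - V' j = cis t by ring, norm_cis]

/-- tiles with a common interior point are equal -/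
theorem Pg.sub_of_int (P : Pg U T g n V α β O) (P' : Pg U T g' n' V' α' β' O') (h : Irr U T)
    {x : ℂ} (hx : x ∈ interior (Tl V)) (hx' : x ∈ interior (Tl V')) : Tl V ⊆ Tl V' := by
  have h1 : interior (Tl V) ⊆ Tl V' := by
    by_contra hcon
    obtain ⟨y, hy, hy'⟩ := not_subset.1 hcon
    obtain ⟨z, -, hz, hz'⟩ := (convex_tl V).interior.isPreconnected (interior (Tl V')) (Tl V')ᶜ
      isOpen_interior (isClosed_tl V').isOpen_compl (fun z hz => by
        by_cases h1 : z ∈ interior (Tl V')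
        · exact Or.inl h1
        · refine Or.inr fun h2 => P.front_int P' h ⟨subset_closure h2, h1⟩ hz)
      ⟨x, hx, hx'⟩ ⟨y, hy, hy'⟩
    exact hz' (interior_subset hz)
  rw [← P.poly.closure_interior h ⟨x, hx⟩]
  exact closure_minimal h1 (isClosed_tl V')

/-- eventually the palette is smaller -/
theorem ev_sub (h : Irr U T) (x : ℂ) : ∀ᶠ y in 𝓝 x, T y ⊆ T x := by
  have h1 : ∀ᶠ y in 𝓝 x, ∀ i : Fin k, i ∈ T y → i ∈ T x := by
    rw [eventually_all]
    intro i
    by_cases hi : i ∈ T x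
    · exact Eventually.of_forall fun y _ => hi
    · filter_upwards [(h.closed i).isOpen_compl.mem_nhds hi] with y hy hy'
      exact absurd hy' hy
  filter_upwards [h1] with y hy i hi
  exact hy i hi

/-- the open arc is not empty -/
theorem exists_mem_uIoo {a b : ℝ} (h : a ≠ b) : ∃ t, t ∈ uIoo a b := by
  rcases lt_or_gt_of_ne h with h1 | h1
  · rw [uIoo_of_le h1.le]; exact ⟨(a + b) / 2, by constructor <;> linarith⟩
  · rw [uIoo_of_ge h1.le]; exact ⟨(a + b) / 2, by constructor <;> linarith⟩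

theorem uIoo_sub_uIcc {a b : ℝ} : uIoo a b ⊆ uIcc a b := fun _ ht => ⟨ht.1.le, ht.2.le⟩

/-- equal tiles have equal colours -/
theorem Pg.col_eq (P : Pg U T g n V α β O) (P' : Pg U T g' n' V' α' β' O') (h : Irr U T)
    (he : Tl V = Tl V') : g = g' := by
  by_contra hne
  obtain ⟨t, ht⟩ := exists_mem_uIoo (P.poly.ne 0)
  have ht' := uIoo_sub_uIcc ht
  have hx : V 0 + cis t ∈ Tl V := P.poly.arc_mem h 0 ht'
  have hxf : V 0 + cis t ∈ frontier (Tl V) := P.poly.gar_frontier h 0 ⟨t, ht', rfl⟩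
  have h1 : g' ∈ T (V 0 + cis t) := P'.T_frontier h (by rw [← he]; exact hxf)
  have h2 := P.ex 0 t ht
  rw [h2] at h1
  have h3 : g' = O 0 := by
    rcases h1 with h1 | h1
    · exact absurd h1.symm hne
    · exact h1
  refine hxf.2 (mem_interior_iff_mem_nhds.2 ?_)
  filter_upwards [ev_sub h (V 0 + cis t), P.poly.near_memT h hx,
    P'.poly.near_memT h (by rw [← he]; exact hx)] with y hy1 hy2 hy3
  obtain ⟨i, hi⟩ := h.ne y
  have h4 := hy1 hi
  rw [h2, ← h3] at h4
  rcases h4 with h4 | h4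
  · exact hy2 (h4 ▸ hi)
  · rw [he]; exact hy3 (h4 ▸ hi)

/-- two points of a tile of another colour -/
theorem Pg.common (P : Pg U T g n V α β O) (P' : Pg U T g' n' V' α' β' O') (h : Irr U T)
    (hne : g ≠ g') {x y : ℂ} (hx : x ∈ Tl V) (hx' : x ∈ Tl V') (hy : y ∈ Tl V)
    (hy' : y ∈ Tl V') : x = y := by
  by_contra hxy
  have h1 := P.poly.midpoint_int hx hy hxy
  have h2 := P'.poly.midpoint_int hx' hy' hxy
  exact hne (P.col_eq P' h (Subset.antisymm (P.sub_of_int P' h h1 h2) (P'.sub_of_int P h h2 h1)))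

/-- a common point is on the frontier -/
theorem Pg.common_frontier (P : Pg U T g n V α β O) (P' : Pg U T g' n' V' α' β' O') (h : Irr U T)
    (hne : g ≠ g') {x : ℂ} (hx : x ∈ Tl V) (hx' : x ∈ Tl V') : x ∈ frontier (Tl V) := by
  refine ⟨subset_closure hx, fun hxi => ?_⟩
  have h1 : x ∈ closure (interior (Tl V')) := by
    rw [P'.poly.closure_interior h (P'.poly.int_nonempty h)]; exact hx'
  obtain ⟨y, hy1, hy2⟩ := mem_closure_iff.1 h1 _ isOpen_interior hxi
  exact hne (P.col_eq P' h (Subset.antisymm (P.sub_of_int P' h hy1 hy2)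
    (P'.sub_of_int P h hy2 hy1)))

/-- near an end of an arc there are points of the open arc -/
theorem arc_freq {a b c : ℝ} (h : a ≠ b) (hc : c ∈ uIcc a b) (v : ℂ) {S : Set ℂ}
    (hS : S ∈ 𝓝 (v + cis c)) : ∃ t ∈ uIoo a b, v + cis t ∈ S ∧ v + cis t ≠ v + cis c := by
  have hcont : Continuous fun s : ℝ => v + cis s := continuous_const.add continuous_cis
  have h1 : ∀ᶠ s in 𝓝 c, v + cis s ∈ S := hcont.continuousAt.eventually hS
  obtain ⟨ε, hε, h2⟩ := Metric.eventually_nhds_iff_ball.1 h1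
  have key : ∀ t : ℝ, t ≠ c → |t - c| < Real.pi → v + cis t ≠ v + cis c := by
    intro t ht1 ht2 he
    have h3 : cr (cis c) (cis t) = 0 := by
      rw [add_left_cancel he]; unfold cr; ring
    rw [cr_cis] at h3
    rw [Real.sin_eq_zero_iff_of_lt_of_lt (by linarith [(abs_lt.1 ht2).1])
      (by linarith [(abs_lt.1 ht2).2])] at h3
    exact ht1 (by linarith)
  have hpi := Real.pi_pos
  rcases lt_or_gt_of_ne h with h3 | h3
  · rw [uIcc_of_le h3.le] at hc
    rw [uIoo_of_le h3.le]
    by_cases hcb : c < b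
    · obtain ⟨t, ht⟩ : ∃ t, t = c + min (min ε (b - c)) Real.pi / 2 := ⟨_, rfl⟩
      have e1 : 0 < min (min ε (b - c)) Real.pi := by
        refine lt_min (lt_min hε (by linarith)) hpi
      have e2 : min (min ε (b - c)) Real.pi ≤ ε := (min_le_left _ _).trans (min_le_left _ _)
      have e3 : min (min ε (b - c)) Real.pi ≤ b - c := (min_le_left _ _).trans (min_le_right _ _)
      have e4 : min (min ε (b - c)) Real.pi ≤ Real.pi := min_le_right _ _
      refine ⟨t, ⟨by linarith [hc.1], by linarith⟩, h2 t ?_, key t (by linarith) ?_⟩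
      · rw [mem_ball, Real.dist_eq, abs_lt]; constructor <;> linarith
      · rw [abs_lt]; constructor <;> linarith
    · have hcb' : c = b := le_antisymm hc.2 (not_lt.1 hcb)
      obtain ⟨t, ht⟩ : ∃ t, t = c - min (min ε (b - a)) Real.pi / 2 := ⟨_, rfl⟩
      have e1 : 0 < min (min ε (b - a)) Real.pi := by
        refine lt_min (lt_min hε (by linarith)) hpi
      have e2 : min (min ε (b - a)) Real.pi ≤ ε := (min_le_left _ _).trans (min_le_left _ _)
      have e3 : min (min ε (b - a)) Real.pi ≤ b - a := (min_le_left _ _).trans (min_le_right _ _)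
      have e4 : min (min ε (b - a)) Real.pi ≤ Real.pi := min_le_right _ _
      refine ⟨t, ⟨by linarith, by linarith⟩, h2 t ?_, key t (by linarith) ?_⟩
      · rw [mem_ball, Real.dist_eq, abs_lt]; constructor <;> linarith
      · rw [abs_lt]; constructor <;> linarith
  · rw [uIcc_of_ge h3.le] at hc
    rw [uIoo_of_ge h3.le]
    by_cases hcb : c < a
    · obtain ⟨t, ht⟩ : ∃ t, t = c + min (min ε (a - c)) Real.pi / 2 := ⟨_, rfl⟩
      have e1 : 0 < min (min ε (a - c)) Real.pi := by
        refine lt_min (lt_min hε (by linarith)) hpi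
      have e2 : min (min ε (a - c)) Real.pi ≤ ε := (min_le_left _ _).trans (min_le_left _ _)
      have e3 : min (min ε (a - c)) Real.pi ≤ a - c := (min_le_left _ _).trans (min_le_right _ _)
      have e4 : min (min ε (a - c)) Real.pi ≤ Real.pi := min_le_right _ _
      refine ⟨t, ⟨by linarith [hc.1], by linarith⟩, h2 t ?_, key t (by linarith) ?_⟩
      · rw [mem_ball, Real.dist_eq, abs_lt]; constructor <;> linarith
      · rw [abs_lt]; constructor <;> linarith
    · have hcb' : c = a := le_antisymm hc.2 (not_lt.1 hcb)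
      obtain ⟨t, ht⟩ : ∃ t, t = c - min (min ε (a - b)) Real.pi / 2 := ⟨_, rfl⟩
      have e1 : 0 < min (min ε (a - b)) Real.pi := by
        refine lt_min (lt_min hε (by linarith)) hpi
      have e2 : min (min ε (a - b)) Real.pi ≤ ε := (min_le_left _ _).trans (min_le_left _ _)
      have e3 : min (min ε (a - b)) Real.pi ≤ a - b := (min_le_left _ _).trans (min_le_right _ _)
      have e4 : min (min ε (a - b)) Real.pi ≤ Real.pi := min_le_right _ _
      refine ⟨t, ⟨by linarith, by linarith⟩, h2 t ?_, key t (by linarith) ?_⟩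
      · rw [mem_ball, Real.dist_eq, abs_lt]; constructor <;> linarith
      · rw [abs_lt]; constructor <;> linarith

/-- the common point is not on a closed arc with the colour `g'` -/
theorem Pg.no_arc (P : Pg U T g n V α β O) (P' : Pg U T g' n' V' α' β' O') (h : Irr U T)
    (hne : g ≠ g') {x : ℂ} (hx : x ∈ Tl V) (hx' : x ∈ Tl V') {j : ℤ} (hO : O j = g') {c : ℝ}
    (hc : c ∈ uIcc (α j) (β j)) : x ≠ V j + cis c := by
  intro hxe
  have h1 := P'.poly.near_memT h hx'
  rw [hxe] at h1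
  obtain ⟨t, ht, h2, h3⟩ := arc_freq (P.poly.ne j) hc (V j) h1
  have h4 : V j + cis t ∈ Tl V' := h2 (by rw [← hO]; exact (P.T_arc h j (uIoo_sub_uIcc ht)).2)
  rw [← hxe] at h3
  exact h3 (P.common P' h hne (P.poly.arc_mem h j (uIoo_sub_uIcc ht)) h4 hx hx')

/-- the common point is a vertex, and the opposite colour is `g'` -/
theorem Pg.common_vertex (P : Pg U T g n V α β O) (P' : Pg U T g' n' V' α' β' O') (h : Irr U T)
    (hne : g ≠ g') {x : ℂ} (hx : x ∈ Tl V) (hx' : x ∈ Tl V') : ∃ j, x = V j ∧ O j = g' := by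
  obtain ⟨j, hj⟩ := mem_iUnion.1 (P.poly.frontier_sub h (P.common_frontier P' h hne hx hx'))
  obtain ⟨c, hc, hxe⟩ := hj
  change V j + cis c = x at hxe
  have hg' : g' ∈ T x := P'.T_frontier h (P'.common_frontier P h hne.symm hx' hx)
  -- not on the open arc
  by_cases hc2 : c ∈ uIoo (α j) (β j)
  · exfalso
    rw [← hxe, P.ex j c hc2] at hg'
    rcases hg' with h1 | h1
    · exact hne h1.symm
    · exact P.no_arc P' h hne hx hx' h1.symm hc hxe.symm
  · obtain ⟨i, hi⟩ : ∃ i, x = V i := by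
      have h1 : c = α j ∨ c = β j := by
        by_contra hcon
        push Not at hcon
        apply hc2
        rcases le_total (α j) (β j) with h2 | h2
        · rw [uIcc_of_le h2] at hc
          rw [uIoo_of_le h2]
          exact ⟨lt_of_le_of_ne hc.1 hcon.1.symm, lt_of_le_of_ne hc.2 hcon.2⟩
        · rw [uIcc_of_ge h2] at hc
          rw [uIoo_of_ge h2]
          exact ⟨lt_of_le_of_ne hc.1 hcon.2.symm, lt_of_le_of_ne hc.2 hcon.1⟩
      rcases h1 with rfl | rfl
      · exact ⟨j - 1, by rw [← hxe, P.poly.left]⟩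
      · exact ⟨j + 1, by rw [← hxe, P.poly.right]⟩
    refine ⟨i, hi, ?_⟩
    rw [hi] at hg'
    rcases P.pal i hg' with h1 | h1 | h1 | h1
    · exact absurd h1.symm hne
    · exact h1.symm
    · exact absurd (by rw [P.poly.left, add_sub_cancel_right]; exact hi)
        (P.no_arc P' h hne hx hx' h1.symm left_mem_uIcc)
    · exact absurd (by rw [P.poly.right, sub_add_cancel]; exact hi)
        (P.no_arc P' h hne hx hx' (Set.mem_singleton_iff.1 h1).symm right_mem_uIcc)

/-- **two tiles which meet have the same colour** -/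
theorem Pg.dis_col (P : Pg U T g n V α β O) (P' : Pg U T g' n' V' α' β' O') (h : Irr U T)
    {x : ℂ} (hx : x ∈ Tl V) (hx' : x ∈ Tl V') : g = g' := by
  by_contra hne
  obtain ⟨j, hj, hO⟩ := P.common_vertex P' h hne hx hx'
  obtain ⟨i, hi, hO'⟩ := P'.common_vertex P h (Ne.symm hne) hx' hx
  obtain ⟨t, ht⟩ := exists_mem_uIoo (P'.poly.ne i)
  have h1 : dist (V' i + cis t) x = 1 := by
    rw [hi, dist_eq_norm, show V' i + cis t - V' i = cis t by ring, norm_cis]
  have h2 : V' i + cis t ∈ Tl V := by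
    refine P.only j _ (by rw [← hj]; exact h1) ?_
    rw [P'.ex i t ht, hO, hO']
    exact Set.pair_comm _ _
  have h3 := P.common P' h hne hx hx' h2 (P'.poly.arc_mem h i (uIoo_sub_uIcc ht))
  rw [← h3, dist_self] at h1
  exact zero_ne_one h1

/-- **two tiles which meet are equal** -/
theorem Pg.dis (P : Pg U T g n V α β O) (P' : Pg U T g' n' V' α' β' O') (h : Irr U T)
    {x : ℂ} (hx : x ∈ Tl V) (hx' : x ∈ Tl V') : g = g' ∧ Tl V = Tl V' := by
  have h1 := P.dis_col P' h hx hx'
  subst h1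
  exact ⟨rfl, P.poly.eq_of_meets P'.poly h hx hx'⟩

/-! ### the set of the tiles -/

/-- a tile of the colour `g`, its vertices are in `E` -/
def IsPg (U : Fin k → Set ℂ) (T : ℂ → Set (Fin k)) (E : Set ℂ) (g : Fin k) (Q : Set ℂ) : Prop :=
  ∃ n V α β O, Pg U T g n V α β O ∧ (∀ j, V j ∈ E) ∧ Q = Tl V

variable {E Q Q' : Set ℂ}

theorem IsPg.isClosed (P : IsPg U T E g Q) : IsClosed Q := by
  obtain ⟨n, V, α, β, O, -, -, rfl⟩ := P
  exact isClosed_tl V

theorem isPg_dis (h : Irr U T) (P : IsPg U T E g Q) (P' : IsPg U T E g' Q') {x : ℂ} (hx : x ∈ Q)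
    (hx' : x ∈ Q') : g = g' ∧ Q = Q' := by
  obtain ⟨n, V, α, β, O, P, -, rfl⟩ := P
  obtain ⟨n', V', α', β', O', P', -, rfl⟩ := P'
  exact P.dis P' h hx hx'

theorem isPg_op (h : Irr U T) (P : IsPg U T E g Q) {x : ℂ} (hx : x ∈ Q) :
    ∀ᶠ y in 𝓝 x, g ∈ T y → y ∈ Q := by
  obtain ⟨n, V, α, β, O, P, -, rfl⟩ := P
  exact P.poly.near_memT h hx

/-- **the tiles are locally finite and closed** -/
theorem isPg_lf (h : Irr U T) (hE : ∀ c r, (E ∩ closedBall c r).Finite) (x : ℂ) :
    ∀ᶠ y in 𝓝 x, ∀ g Q, IsPg U T E g Q → y ∈ Q → x ∈ Q := by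
  have h1 : ∀ v ∈ E ∩ closedBall x 2, ∀ᶠ y in 𝓝 x, ∀ g Q, IsPg U T E g Q → v ∈ Q → y ∈ Q →
      x ∈ Q := by
    intro v _
    by_cases hv : ∃ g Q, IsPg U T E g Q ∧ v ∈ Q
    · obtain ⟨g₀, Q₀, hQ₀, hv₀⟩ := hv
      by_cases hx : x ∈ Q₀
      · refine Eventually.of_forall fun y g Q hQ hvQ _ => ?_
        rw [(isPg_dis h hQ hQ₀ hvQ hv₀).2]
        exact hx
      · filter_upwards [hQ₀.isClosed.isOpen_compl.mem_nhds hx] with y hy g Q hQ hvQ hyQ
        rw [(isPg_dis h hQ hQ₀ hvQ hv₀).2] at hyQ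
        exact absurd hyQ hy
    · refine Eventually.of_forall fun y g Q hQ hvQ _ => ?_
      exact absurd ⟨g, Q, hQ, hvQ⟩ hv
  have h2 := (hE x 2).eventually_all.2 h1
  filter_upwards [h2, ball_mem_nhds x one_pos] with y hy hyx g Q hQ hyQ
  obtain ⟨n, V, α, β, O, P, hVE, rfl⟩ := hQ
  refine hy (V 0) ⟨hVE 0, ?_⟩ g _ ⟨n, V, α, β, O, P, hVE, rfl⟩ (P.poly.mem_tl h 0) hyQ
  rw [mem_closedBall]
  have h3 : dist y (V 0) ≤ 1 := hyQ 0
  have h4 : dist y x < 1 := hyx
  have h5 := dist_triangle (V 0) y x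
  rw [dist_comm (V 0) y] at h5
  linarith

/-- a point of the frontier is on a closed arc -/
theorem Pg.on_arc (P : Pg U T g n V α β O) (h : Irr U T) {x : ℂ} (hx : x ∈ frontier (Tl V)) :
    ∃ j, x ∈ Gar V α β j := mem_iUnion.1 (P.poly.frontier_sub h hx)

end Vale.Agent.P032.H484
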