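import Vale.Agent.P032.H989.Germ

/-!
# P032: the rule (HP) for moving configurations

A configuration of moving points `mv z a i s = z i + cis (s + a i)`; two of its points, `i` and `j`,
stay at distance one.  At the time `u` let `x = mv z a i u`, `y = mv z a j u`, and let `vel a i u` be
the velocity of `x`.  The colours which `y` carries before the time `u` are absent near `x` on the
side of the line through `x` orthogonal to `y - x` that contains minus the velocity (more exactly:
outside or inside the unit circle about `y`), the colours which `y` carries after the time `u` are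
absent near `x` on the side that contains the velocity.
-/

open Set Filter Topology Metric

noncomputable section

namespace Vale.Agent.P032.H484

open Vale.Agent.P032.Six Vale.Agent.P032.H989

variable {k : ℕ} {U : Fin k → Set ℂ} {T : ℂ → Set (Fin k)} {ι : Type*}

/-- the moving points -/
def mv (z : ι → ℂ) (a : ι → ℝ) (i : ι) (s : ℝ) : ℂ := z i + cis (s + a i)

/-- their velocities -/
def vel (a : ι → ℝ) (i : ι) (s : ℝ) : ℂ := ⟨-Real.sin (s + a i), Real.cos (s + a i)⟩

theorem inn_vel (a : ι → ℝ) (i : ι) (s : ℝ) (d : ℂ) : inn (vel a i s) d = cr (cis (s + a i)) d := by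
  simp only [inn, vel, cr, cis_re, cis_im]
  ring

theorem inn_comm (a b : ℂ) : inn a b = inn b a := by
  simp only [inn]; ring

theorem inn_neg (a b : ℂ) : inn a (-b) = -inn a b := by
  simp only [inn, Complex.neg_re, Complex.neg_im]; ring

theorem continuous_mv (z : ι → ℂ) (a : ι → ℝ) (i : ι) : Continuous (mv z a i) :=
  continuous_const.add (continuous_cis.comp (by fun_prop))

theorem hasDerivAt_mv_re (z : ι → ℂ) (a : ι → ℝ) (i : ι) (u : ℝ) :
    HasDerivAt (fun s => (mv z a i s).re) (vel a i u).re u := by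
  have h1 : HasDerivAt (fun s : ℝ => s + a i) 1 u := (hasDerivAt_id u).add_const _
  have h2 := ((Real.hasDerivAt_cos (u + a i)).comp u h1).const_add (z i).re
  refine (h2.congr_deriv (by simp [vel])).congr_of_eventuallyEq ?_
  exact Eventually.of_forall fun s => by simp [mv, cis_re, Function.comp]

theorem hasDerivAt_mv_im (z : ι → ℂ) (a : ι → ℝ) (i : ι) (u : ℝ) :
    HasDerivAt (fun s => (mv z a i s).im) (vel a i u).im u := by
  have h1 : HasDerivAt (fun s : ℝ => s + a i) 1 u := (hasDerivAt_id u).add_const _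
  have h2 := ((Real.hasDerivAt_sin (u + a i)).comp u h1).const_add (z i).im
  refine (h2.congr_deriv (by simp [vel])).congr_of_eventuallyEq ?_
  exact Eventually.of_forall fun s => by simp [mv, cis_im, Function.comp]

/-- two points of the configuration which stay at distance one have the same velocity component
along their difference -/
theorem rate_eq {z : ι → ℂ} {a : ι → ℝ} {i j : ι} {u : ℝ}
    (hd : ∀ᶠ s in 𝓝 u, dist (mv z a i s) (mv z a j s) = 1) :
    inn (vel a j u) (mv z a j u - mv z a i u) = inn (vel a i u) (mv z a j u - mv z a i u) := by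
  have h1 := (hasDerivAt_mv_re z a i u).sub (hasDerivAt_mv_re z a j u)
  have h2 := (hasDerivAt_mv_im z a i u).sub (hasDerivAt_mv_im z a j u)
  have h3 := (h1.mul h1).add (h2.mul h2)
  have h4 : HasDerivAt (fun s : ℝ => ((mv z a i s).re - (mv z a j s).re) *
      ((mv z a i s).re - (mv z a j s).re) + ((mv z a i s).im - (mv z a j s).im) *
      ((mv z a i s).im - (mv z a j s).im)) 0 u := by
    refine (hasDerivAt_const u (1 : ℝ)).congr_of_eventuallyEq ?_
    filter_upwards [hd] with s hs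
    have := (dist_eq_one_iff _ _).1 hs
    nlinarith
  have h5 := h3.unique h4
  simp only [Pi.sub_apply] at h5
  simp only [inn, Complex.sub_re, Complex.sub_im]
  linarith

/-- the branch of the moving point `j` before the time `u` -/
theorem br_before {z : ι → ℂ} {a : ι → ℝ} {j : ι} {u : ℝ} {P : Set (Fin k)}
    (hP : ∀ᶠ s in 𝓝[<] u, P ⊆ Pal U (mv z a j s)) : Br U (z j) (u + a j) (-1) P := by
  have h1 : Tendsto (fun s : ℝ => u - s) (𝓝[>] (0 : ℝ)) (𝓝[<] u) := by
    refine tendsto_nhdsWithin_iff.2 ⟨?_, ?_⟩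
    · have h2 : Continuous fun s : ℝ => u - s := by fun_prop
      have h3 := h2.tendsto 0
      simp only [sub_zero] at h3
      exact h3.mono_left nhdsWithin_le_nhds
    · filter_upwards [self_mem_nhdsWithin] with s hs
      have hs : (0 : ℝ) < s := hs
      exact mem_Iio.2 (by linarith)
  filter_upwards [h1.eventually hP] with s hs
  have h2 : z j + cis (u + a j + -1 * s) = mv z a j (u - s) := by
    simp only [mv]; congr 2; ring
  rw [h2]; exact hs

/-- the branch of the moving point `j` after the time `u` -/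
theorem br_after {z : ι → ℂ} {a : ι → ℝ} {j : ι} {u : ℝ} {P : Set (Fin k)}
    (hP : ∀ᶠ s in 𝓝[>] u, P ⊆ Pal U (mv z a j s)) : Br U (z j) (u + a j) 1 P := by
  have h1 : Tendsto (fun s : ℝ => u + s) (𝓝[>] (0 : ℝ)) (𝓝[>] u) := by
    refine tendsto_nhdsWithin_iff.2 ⟨?_, ?_⟩
    · have h2 : Continuous fun s : ℝ => u + s := by fun_prop
      have h3 := h2.tendsto 0
      simp only [add_zero] at h3
      exact h3.mono_left nhdsWithin_le_nhds
    · filter_upwards [self_mem_nhdsWithin] with s hs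
      have hs : (0 : ℝ) < s := hs
      exact mem_Ioi.2 (by linarith)
  filter_upwards [h1.eventually hP] with s hs
  have h2 : z j + cis (u + a j + 1 * s) = mv z a j (u + s) := by
    simp only [mv]; congr 2; ring
  rw [h2]; exact hs

section
variable {z : ι → ℂ} {a : ι → ℝ} {i j : ι} {u : ℝ} {P : Set (Fin k)}

theorem sgn_eq (hd : ∀ᶠ s in 𝓝 u, dist (mv z a i s) (mv z a j s) = 1) :
    cr (cis (u + a j)) (z j + cis (u + a j) - mv z a i u) =
      inn (vel a i u) (mv z a j u - mv z a i u) := by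
  rw [← rate_eq hd, inn_vel]; rfl

/-- **(HP), before**: the colours of `j` before the time `u` are absent near the point `i`: outside
the circle about the point `j` if the velocity points towards `j`, inside if it points away. -/
theorem hp_before (h : Mx U) (hd : ∀ᶠ s in 𝓝 u, dist (mv z a i s) (mv z a j s) = 1)
    (hP : ∀ᶠ s in 𝓝[<] u, P ⊆ Pal U (mv z a j s)) : ∀ᶠ v in 𝓝 (mv z a i u),
      (0 < inn (vel a i u) (mv z a j u - mv z a i u) ∧ 1 < dist (mv z a j u) v ∨
        inn (vel a i u) (mv z a j u - mv z a i u) < 0 ∧ dist (mv z a j u) v < 1) →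
      ∀ c ∈ P, c ∉ Pal U v := by
  have hw : dist (z j + cis (u + a j)) (mv z a i u) = 1 := by rw [dist_comm]; exact hd.self_of_nhds
  have h1 := germ_ev h hw (br_before (z := z) hP)
  rw [sgn_eq hd] at h1
  filter_upwards [h1] with v hv hor
  refine hv ?_
  rcases hor with ⟨h2, h3⟩ | ⟨h2, h3⟩
  · exact Or.inr ⟨h3, by linarith⟩
  · exact Or.inl ⟨h3, by linarith⟩

/-- **(HP), after**: the colours of `j` after the time `u` are absent near the point `i`: inside
the circle about the point `j` if the velocity points towards `j`, outside if it points away. -/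
theorem hp_after (h : Mx U) (hd : ∀ᶠ s in 𝓝 u, dist (mv z a i s) (mv z a j s) = 1)
    (hP : ∀ᶠ s in 𝓝[>] u, P ⊆ Pal U (mv z a j s)) : ∀ᶠ v in 𝓝 (mv z a i u),
      (0 < inn (vel a i u) (mv z a j u - mv z a i u) ∧ dist (mv z a j u) v < 1 ∨
        inn (vel a i u) (mv z a j u - mv z a i u) < 0 ∧ 1 < dist (mv z a j u) v) →
      ∀ c ∈ P, c ∉ Pal U v := by
  have hw : dist (z j + cis (u + a j)) (mv z a i u) = 1 := by rw [dist_comm]; exact hd.self_of_nhds
  have h1 := germ_ev h hw (br_after (z := z) hP)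
  rw [sgn_eq hd] at h1
  filter_upwards [h1] with v hv hor
  refine hv ?_
  rcases hor with ⟨h2, h3⟩ | ⟨h2, h3⟩
  · exact Or.inl ⟨h3, by linarith⟩
  · exact Or.inr ⟨h3, by linarith⟩

/-- (HP), before, on a ray in a direction `e` of the side of minus the velocity -/
theorem hp_ray_before (h : Mx U) (hd : ∀ᶠ s in 𝓝 u, dist (mv z a i s) (mv z a j s) = 1)
    (hP : ∀ᶠ s in 𝓝[<] u, P ⊆ Pal U (mv z a j s)) {e : ℂ}
    (he : inn (vel a i u) (mv z a j u - mv z a i u) * inn (mv z a j u - mv z a i u) e < 0) :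
    ∀ᶠ t : ℝ in 𝓝[>] (0 : ℝ), ∀ c ∈ P, c ∉ Pal U (mv z a i u + (t : ℂ) * e) := by
  have hw : dist (z j + cis (u + a j)) (mv z a i u) = 1 := by rw [dist_comm]; exact hd.self_of_nhds
  refine germ_dir h hw (br_before (z := z) hP) ?_
  rw [sgn_eq hd]
  change 0 < -1 * inn (vel a i u) (mv z a j u - mv z a i u) * inn (mv z a j u - mv z a i u) e
  linarith

/-- (HP), after, on a ray in a direction `e` of the side of the velocity -/
theorem hp_ray_after (h : Mx U) (hd : ∀ᶠ s in 𝓝 u, dist (mv z a i s) (mv z a j s) = 1)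
    (hP : ∀ᶠ s in 𝓝[>] u, P ⊆ Pal U (mv z a j s)) {e : ℂ}
    (he : 0 < inn (vel a i u) (mv z a j u - mv z a i u) * inn (mv z a j u - mv z a i u) e) :
    ∀ᶠ t : ℝ in 𝓝[>] (0 : ℝ), ∀ c ∈ P, c ∉ Pal U (mv z a i u + (t : ℂ) * e) := by
  have hw : dist (z j + cis (u + a j)) (mv z a i u) = 1 := by rw [dist_comm]; exact hd.self_of_nhds
  refine germ_dir h hw (br_after (z := z) hP) ?_
  rw [sgn_eq hd]
  change 0 < 1 * inn (vel a i u) (mv z a j u - mv z a i u) * inn (mv z a j u - mv z a i u) e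
  linarith

end

section
variable {z : ι → ℂ} {a : ι → ℝ} {i : ι} {u : ℝ}

/-- **(HP), cover form, before**: some colour of `T x` is in none of the palettes which the
neighbours `j ∈ J` carry before the time `u`; the side is given by a direction `e`. -/
theorem hp_cover_before (h : Irr U T) {κ : Type*} [Finite κ] (J : κ → ι) (P : κ → Set (Fin k))
    (hd : ∀ q, ∀ᶠ s in 𝓝 u, dist (mv z a i s) (mv z a (J q) s) = 1)
    (hP : ∀ q, ∀ᶠ s in 𝓝[<] u, P q ⊆ Pal U (mv z a (J q) s)) {e : ℂ}
    (he : ∀ q, inn (vel a i u) (mv z a (J q) u - mv z a i u) *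
      inn (mv z a (J q) u - mv z a i u) e < 0) :
    ∃ c, c ∈ T (mv z a i u) ∧ ∀ q, c ∉ P q := by
  have h1 : ∀ᶠ t : ℝ in 𝓝[>] (0 : ℝ), ∀ q, ∀ c ∈ P q, c ∉ Pal U (mv z a i u + (t : ℂ) * e) :=
    eventually_all.2 fun q => hp_ray_before h.mx (hd q) (hP q) (he q)
  have h2 : Tendsto (fun t : ℝ => mv z a i u + (t : ℂ) * e) (𝓝[>] (0 : ℝ)) (𝓝 (mv z a i u)) := by
    have h3 : Continuous fun t : ℝ => mv z a i u + (t : ℂ) * e := by fun_prop
    have h4 := h3.tendsto 0
    simp only [Complex.ofReal_zero, zero_mul, add_zero] at h4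
    exact h4.mono_left nhdsWithin_le_nhds
  obtain ⟨t, ht1, ht2⟩ := (h1.and (h2.eventually (h.nhd _))).exists
  obtain ⟨c, hc⟩ := h.ne (mv z a i u + (t : ℂ) * e)
  exact ⟨c, ht2 hc, fun q hq => ht1 q c hq (h.sub _ hc)⟩

/-- **(HP), cover form, after** -/
theorem hp_cover_after (h : Irr U T) {κ : Type*} [Finite κ] (J : κ → ι) (P : κ → Set (Fin k))
    (hd : ∀ q, ∀ᶠ s in 𝓝 u, dist (mv z a i s) (mv z a (J q) s) = 1)
    (hP : ∀ q, ∀ᶠ s in 𝓝[>] u, P q ⊆ Pal U (mv z a (J q) s)) {e : ℂ}
    (he : ∀ q, 0 < inn (vel a i u) (mv z a (J q) u - mv z a i u) *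
      inn (mv z a (J q) u - mv z a i u) e) :
    ∃ c, c ∈ T (mv z a i u) ∧ ∀ q, c ∉ P q := by
  have h1 : ∀ᶠ t : ℝ in 𝓝[>] (0 : ℝ), ∀ q, ∀ c ∈ P q, c ∉ Pal U (mv z a i u + (t : ℂ) * e) :=
    eventually_all.2 fun q => hp_ray_after h.mx (hd q) (hP q) (he q)
  have h2 : Tendsto (fun t : ℝ => mv z a i u + (t : ℂ) * e) (𝓝[>] (0 : ℝ)) (𝓝 (mv z a i u)) := by
    have h3 : Continuous fun t : ℝ => mv z a i u + (t : ℂ) * e := by fun_prop
    have h4 := h3.tendsto 0
    simp only [Complex.ofReal_zero, zero_mul, add_zero] at h4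
    exact h4.mono_left nhdsWithin_le_nhds
  obtain ⟨t, ht1, ht2⟩ := (h1.and (h2.eventually (h.nhd _))).exists
  obtain ⟨c, hc⟩ := h.ne (mv z a i u + (t : ℂ) * e)
  exact ⟨c, ht2 hc, fun q hq => ht1 q c hq (h.sub _ hc)⟩

/-- (HP), before, on the ray in the direction of minus the velocity: all neighbours at once -/
theorem hp_neg_vel (h : Irr U T) {κ : Type*} [Finite κ] (J : κ → ι) (P : κ → Set (Fin k))
    (hd : ∀ q, ∀ᶠ s in 𝓝 u, dist (mv z a i s) (mv z a (J q) s) = 1)
    (hP : ∀ q, ∀ᶠ s in 𝓝[<] u, P q ⊆ Pal U (mv z a (J q) s))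
    (hv : ∀ q, inn (vel a i u) (mv z a (J q) u - mv z a i u) ≠ 0) :
    ∃ c, c ∈ T (mv z a i u) ∧ ∀ q, c ∉ P q := by
  refine hp_cover_before h J P hd hP (e := -vel a i u) fun q => ?_
  rw [inn_neg, inn_comm (mv z a (J q) u - mv z a i u)]
  have := mul_self_pos.2 (hv q)
  linarith

/-- (HP), after, on the ray in the direction of the velocity: all neighbours at once -/
theorem hp_vel (h : Irr U T) {κ : Type*} [Finite κ] (J : κ → ι) (P : κ → Set (Fin k))
    (hd : ∀ q, ∀ᶠ s in 𝓝 u, dist (mv z a i s) (mv z a (J q) s) = 1)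
    (hP : ∀ q, ∀ᶠ s in 𝓝[>] u, P q ⊆ Pal U (mv z a (J q) s))
    (hv : ∀ q, inn (vel a i u) (mv z a (J q) u - mv z a i u) ≠ 0) :
    ∃ c, c ∈ T (mv z a i u) ∧ ∀ q, c ∉ P q := by
  refine hp_cover_after h J P hd hP (e := vel a i u) fun q => ?_
  rw [inn_comm (mv z a (J q) u - mv z a i u)]
  exact mul_self_pos.2 (hv q)

end

end Vale.Agent.P032.H484
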