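import Vale.Agent.P032.S5.H80.Ray

/-!
# P032: maximality lines, line rule, key lemma

* `ml`: a point outside `U i` is on a unit circle about a point `q` with `i` in its palette; this
  circle does not meet `U i`.  `ml_near`: near `z` the centre `q` is near a point of `S(z)` with `i`
  in its palette.
* `lr_near`: at a point `y` with `T y ⊆ {a, b}`: for `q` near `y` the circle about `q` does not
  carry `a` and `b` at two points which are different and not antipodal.
* `key`: the key lemma for a colour `s` which is in the palette of a point near `y`, where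
  `T y ⊆ {g, b}`, `T y' ⊆ {g, b'}` (`y'` antipodal to `y`), and `T ⊆ {g, s}` on two rays.
-/

open Set Filter Topology Metric

noncomputable section

namespace Vale.Agent.P032.H484

open Vale.Agent.P032.Six

variable {k : ℕ} {U : Fin k → Set ℂ} {T : ℂ → Set (Fin k)}

/-- **(ML)** -/
theorem ml (h : Irr U T) {i : Fin k} {x : ℂ} (hx : x ∉ U i) :
    ∃ q, dist q x = 1 ∧ i ∈ Pal U q ∧ ∀ y, dist q y = 1 → y ∉ U i := by
  obtain ⟨q, h1, h2⟩ := h.partner hx
  exact ⟨q, by rw [dist_comm]; exact h1, h2, fun y hy hyU =>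
    h.mx.notMem' hyU (by rw [dist_comm]; exact hy) h2⟩

/-- **(ML)**, near form -/
theorem ml_near (h : Irr U T) (z : ℂ) {ε : ℝ} (hε : 0 < ε) : ∀ᶠ x in 𝓝 z, ∀ i, x ∉ U i →
    ∃ q y, dist q x = 1 ∧ i ∈ Pal U q ∧ dist y z = 1 ∧ i ∈ Pal U y ∧ dist q y < ε ∧
      ∀ v, dist q v = 1 → v ∉ U i := by
  rw [eventually_all]
  intro i
  -- the compact set of bad centres
  set A : Set ℂ := {q | i ∈ Pal U q} ∩ (closedBall z 2 ∩
    {q | ∀ y, dist y z = 1 → i ∈ Pal U y → ε ≤ dist q y}) with hA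
  have hAc : IsCompact A := by
    have h1 : IsClosed {q : ℂ | i ∈ Pal U q} := isClosed_closure
    have h2 : IsClosed {q : ℂ | ∀ y, dist y z = 1 → i ∈ Pal U y → ε ≤ dist q y} := by
      simp only [ofPred_forall]
      refine isClosed_iInter fun y => isClosed_iInter fun _ => isClosed_iInter fun _ => ?_
      exact isClosed_le continuous_const (continuous_id.dist continuous_const)
    have h3 : IsCompact (closedBall z 2 ∩
        {q : ℂ | ∀ y, dist y z = 1 → i ∈ Pal U y → ε ≤ dist q y}) :=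
      (isCompact_closedBall z 2).inter_right h2
    exact h3.inter_left h1
  have hAz : ∀ q ∈ A, dist q z ≠ 1 := by
    rintro q ⟨h1, -, h2⟩ h3
    have := h2 q h3 h1
    rw [dist_self] at this
    linarith
  have hopen : ∀ᶠ x in 𝓝 z, ∀ q ∈ A, dist q x ≠ 1 := by
    have h1 : IsCompact ((fun q => dist q z) '' A) :=
      hAc.image (continuous_id.dist continuous_const)
    have h2 : (1 : ℝ) ∉ (fun q => dist q z) '' A := by
      rintro ⟨q, hq, h3⟩
      exact hAz q hq h3
    obtain ⟨δ, hδ, hball⟩ := Metric.isOpen_iff.1 h1.isClosed.isOpen_compl 1 h2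
    filter_upwards [ball_mem_nhds z hδ] with x hx q hq h3
    have h5 : dist q z ∈ ball (1 : ℝ) δ := by
      rw [mem_ball, Real.dist_eq, ← h3]
      have h4 : |dist q z - dist q x| ≤ dist z x := by
        rw [abs_le]
        have h6 := dist_triangle q z x
        have h7 := dist_triangle_right q z x
        constructor <;> linarith [dist_comm z x]
      rw [mem_ball, dist_comm] at hx
      exact lt_of_le_of_lt h4 hx
    exact hball h5 ⟨q, hq, rfl⟩
  filter_upwards [hopen, ball_mem_nhds z one_pos] with x hx1 hx2 hxi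
  obtain ⟨q, hq1, hq2, hq3⟩ := ml h hxi
  by_contra hcon
  push Not at hcon
  refine hx1 q ⟨hq2, ?_, fun y hy1 hy2 => ?_⟩ hq1
  · rw [mem_ball] at hx2
    rw [mem_closedBall]
    have := dist_triangle q x z
    linarith
  · by_contra hlt
    push Not at hlt
    obtain ⟨v, hv1, hv2⟩ := hcon q y hq1 hq2 hy1 hy2 hlt
    exact hq3 v hv1 hv2

/-- **(LR)**, closed form -/
theorem lr_near (h : Irr U T) {y : ℂ} {a b : Fin k} (hy : T y ⊆ {a, b}) :
    ∀ᶠ q in 𝓝 y, ∀ w x, dist q w = 1 → dist q x = 1 → a ∈ Pal U w → b ∈ Pal U x →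
      x = w ∨ x + w = 2 * q := by
  filter_upwards [h.nhd y] with q hq w x hw hx ha hb
  exact h.lemmaB (hq.trans hy) hw hx ha hb

/-- **(LR)** for three colours: a circle which meets `U a` and `U b` has `T = {c}` at its centre -/
theorem lr_three (h : Irr U T) {y : ℂ} {a b c : Fin k} (hy : T y ⊆ {a, b, c}) :
    ∀ᶠ q in 𝓝 y, ∀ w x, dist q w = 1 → dist q x = 1 → w ∈ U a → x ∈ U b →
      T q = {c} ∧ q ∈ U c ∧ ∀ v, dist q v = 1 → c ∉ Pal U v := by
  filter_upwards [h.nhd y] with q hq w x hw hx ha hb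
  have h1 : T q ⊆ {c} := by
    intro m hm
    rcases hy (hq hm) with h2 | h2 | h2
    · exact absurd (h2 ▸ h.sub q hm) (h.mx.notMem' ha (by rw [dist_comm]; exact hw) ·)
    · exact absurd (h2 ▸ h.sub q hm) (h.mx.notMem' hb (by rw [dist_comm]; exact hx) ·)
    · exact h2
  have h2 : q ∈ U c := h.mem_of_single h1
  refine ⟨?_, h2, fun v hv => h.mx.notMem' h2 hv⟩
  obtain ⟨m, hm⟩ := h.ne q
  have h3 : m = c := h1 hm
  refine Subset.antisymm h1 fun m' hm' => ?_
  have h4 : m' = c := hm'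
  rw [h4, ← h3]; exact hm

/-- **Key lemma**, core: `q` is an `s`-partner of `w`, the circle about `q` has a second point `x`
with `T x ⊆ {g, s}`; `T q ⊆ {g, b}` and `T q' ⊆ {g, b'}` for the second circle `q' = w + x - q`
through `w` and `x`. -/
theorem key_core (h : Irr U T) {q w x : ℂ} {g b b' s : Fin k} (hw : dist q w = 1)
    (hx : dist q x = 1) (hs : s ∈ Pal U q) (hne : x ≠ w) (hne2 : x + w ≠ 2 * q)
    (hxT : T x ⊆ {g, s}) (hq : T q ⊆ {g, b}) (hq' : T (w + x - q) ⊆ {g, b'}) :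
    b ∉ Pal U w ∧ b' ∉ Pal U w := by
  -- `g ∈ T x`
  have hg : g ∈ Pal U x := by
    by_contra hcon
    have h1 : T x ⊆ {s} := by
      intro m hm
      rcases hxT hm with h2 | h2
      · exact absurd (h2 ▸ h.sub x hm) hcon
      · exact h2
    exact h.mx.notMem' (h.mem_of_single h1) (by rw [dist_comm]; exact hx) hs
  refine ⟨fun hb => ?_, fun hb => ?_⟩
  · rcases h.lemmaB hq hx hw hg hb with h1 | h1
    · exact hne h1.symm
    · exact hne2 (by rw [add_comm]; exact h1)
  · have h1 : dist (w + x - q) x = 1 := by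
      rw [dist_eq_norm, show w + x - q - x = -(q - w) by ring, norm_neg, ← dist_eq_norm]
      exact hw
    have h2 : dist (w + x - q) w = 1 := by
      rw [dist_eq_norm, show w + x - q - w = -(q - x) by ring, norm_neg, ← dist_eq_norm]
      exact hx
    rcases h.lemmaB hq' h1 h2 hg hb with h3 | h3
    · exact hne h3.symm
    · refine hne2 ?_
      have : (w + x) = 2 * q := by
        have h4 : w + x = 2 * (w + x - q) := h3
        linear_combination -h4
      rw [add_comm]; exact this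

/-- crossing of a ray at `z` by the circle about a point `q` near `y`, `q` at distance more than one
from `z` -/
theorem ray_hit {z y e : ℂ} (hy : dist z y = 1) (he : 0 < ip e (y - z)) {η : ℝ} (hη : 0 < η) :
    ∀ᶠ q in 𝓝 y, 1 < dist z q → ∃ r : ℝ, 0 < r ∧ r < η ∧ dist (z + r * e) q = 1 := by
  have hc : Continuous fun q : ℂ => ip e (q - z) := by
    simp only [ip, Complex.sub_re, Complex.sub_im]; fun_prop
  filter_upwards [line_crossing hy he.ne' hη, hc.continuousAt.eventually (lt_mem_nhds he)]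
    with q h1 h2 h3
  obtain ⟨r, hr1, hr2⟩ := h1
  have h2 : 0 < ip e (q - z) := h2
  refine ⟨r, ?_, (abs_lt.1 hr1).2, hr2⟩
  by_contra hcon
  push Not at hcon
  have h4 := sq_line z e q r
  rw [hr2] at h4
  have h5 : 0 ≤ ip e e := by
    simp only [ip]; nlinarith [sq_nonneg e.re, sq_nonneg e.im]
  nlinarith [mul_nonneg (neg_nonneg.2 hcon) h2.le, mul_nonneg (sq_nonneg r) h5,
    dist_nonneg (x := z) (y := q)]

/-- the same for a point `q` at distance less than one from `z` -/
theorem ray_hit' {z y e : ℂ} (hy : dist z y = 1) (he : ip e (y - z) < 0) {η : ℝ} (hη : 0 < η) :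
    ∀ᶠ q in 𝓝 y, dist z q < 1 → ∃ r : ℝ, 0 < r ∧ r < η ∧ dist (z + r * e) q = 1 := by
  have hcont : ContinuousAt (fun q : ℂ => dist (z + (min η 1 / 2 : ℝ) * e) q) y := by fun_prop
  have hr0 : 0 < min η 1 / 2 := by have := lt_min hη one_pos; linarith
  have h0 : 1 < dist (z + (min η 1 / 2 : ℝ) * e) y := by
    have h4 := sq_line z e y (min η 1 / 2)
    rw [hy] at h4
    have h5 : 0 ≤ ip e e := by
      simp only [ip]; nlinarith [sq_nonneg e.re, sq_nonneg e.im]
    have h6 : 1 < dist (z + (min η 1 / 2 : ℝ) * e) y ^ 2 := by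
      nlinarith [mul_pos hr0 (neg_pos.2 he), mul_nonneg (sq_nonneg (min η 1 / 2)) h5]
    by_contra hcon
    push Not at hcon
    nlinarith [dist_nonneg (x := z + (min η 1 / 2 : ℝ) * e) (y := y)]
  filter_upwards [hcont.eventually (lt_mem_nhds h0)] with q h1 h2
  have h3 : ContinuousOn (fun t : ℝ => dist (z + t * e) q) (Icc 0 (min η 1 / 2)) := by fun_prop
  have h4 : (1 : ℝ) ∈ Icc (dist (z + (0 : ℝ) * e) q) (dist (z + (min η 1 / 2 : ℝ) * e) q) := by
    refine ⟨?_, h1.le⟩
    simp only [Complex.ofReal_zero, zero_mul, add_zero]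
    exact h2.le
  obtain ⟨r, hr, hr1⟩ := intermediate_value_Icc hr0.le h3 h4
  refine ⟨r, ?_, ?_, hr1⟩
  · rcases hr.1.eq_or_lt with h5 | h5
    · exfalso
      rw [← h5] at hr1
      simp only [Complex.ofReal_zero, zero_mul, add_zero] at hr1
      linarith
    · exact h5
  · have := min_le_left η 1
    have := hr.2
    linarith

/-- two points on two rays in independent directions are different -/
theorem ne_of_rays {z e e' : ℂ} (hee : cr e e' ≠ 0) {r r' : ℝ} (hr : 0 < r) :
    z + r * e ≠ z + r' * e' := by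
  intro hcon
  have h1 : (r : ℂ) * e = r' * e' := add_left_cancel hcon
  have h2 := congrArg Complex.re h1
  have h3 := congrArg Complex.im h1
  simp only [Complex.mul_re, Complex.mul_im, Complex.ofReal_re, Complex.ofReal_im, zero_mul,
    sub_zero, add_zero] at h2 h3
  apply hee
  simp only [cr]
  have h4 : r * (e.re * e'.im - e.im * e'.re) = 0 := by
    calc r * (e.re * e'.im - e.im * e'.re) = (r * e.re) * e'.im - (r * e.im) * e'.re := by ring
      _ = 0 := by rw [h2, h3]; ring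
  rcases mul_eq_zero.1 h4 with h5 | h5
  · exact absurd h5 hr.ne'
  · exact h5

theorem key_aux (h : Irr U T) {z y e e' : ℂ} {g b b' s : Fin k}
    (hT : T y ⊆ {g, b}) (hT' : T (2 * z - y) ⊆ {g, b'}) (hee : cr e e' ≠ 0) {R : ℂ → Prop}
    (hR : ∀ η > 0, ∀ᶠ q in 𝓝 y, R q → ∃ r : ℝ, 0 < r ∧ r < η ∧ dist (z + r * e) q = 1)
    (hR' : ∀ η > 0, ∀ᶠ q in 𝓝 y, R q → ∃ r : ℝ, 0 < r ∧ r < η ∧ dist (z + r * e') q = 1)
    (hW : ∀ᶠ r : ℝ in 𝓝[>] 0, T (z + r * e) ⊆ {g, s})
    (hW' : ∀ᶠ r : ℝ in 𝓝[>] 0, T (z + r * e') ⊆ {g, s}) :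
    ∃ δ > 0, ∀ w q, dist w z < δ → dist q y < δ → dist q w = 1 → s ∈ Pal U q → R q →
      b ∉ Pal U w ∧ b' ∉ Pal U w := by
  -- the rays
  obtain ⟨η1, hη1, hη1'⟩ := mem_nhdsGT_iff_exists_Ioo_subset.1 hW
  obtain ⟨η2, hη2, hη2'⟩ := mem_nhdsGT_iff_exists_Ioo_subset.1 hW'
  -- neighbourhoods of `y` and of the antipodal point
  obtain ⟨ε1, hε1, h1⟩ := Metric.eventually_nhds_iff.1 (h.nhd y)
  obtain ⟨ε2, hε2, h2⟩ := Metric.eventually_nhds_iff.1 (h.nhd (2 * z - y))
  set ε := min ε1 (min ε2 1) with hεd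
  have hε : 0 < ε := lt_min hε1 (lt_min hε2 one_pos)
  -- the length of the rays
  set N := ‖e‖ + ‖e'‖ + 1 with hN
  have hNp : 0 < N := by positivity
  set η := min (min η1 η2) (ε / (4 * N)) with hηd
  have hη : 0 < η := lt_min (lt_min hη1 hη2) (by positivity)
  obtain ⟨δ1, hδ1, h3⟩ := Metric.eventually_nhds_iff.1 (hR η hη)
  obtain ⟨δ2, hδ2, h4⟩ := Metric.eventually_nhds_iff.1 (hR' η hη)
  refine ⟨min (min δ1 δ2) (ε / 4), lt_min (lt_min hδ1 hδ2) (by positivity), ?_⟩
  intro w q hw hq hqw hs hRq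
  have hw' : dist w z < ε / 4 := lt_of_lt_of_le hw (min_le_right _ _)
  have hq' : dist q y < ε / 4 := lt_of_lt_of_le hq (min_le_right _ _)
  obtain ⟨r1, hr10, hr1η, hr1⟩ :=
    h3 (lt_of_lt_of_le hq ((min_le_left _ _).trans (min_le_left _ _))) hRq
  obtain ⟨r2, hr20, hr2η, hr2⟩ :=
    h4 (lt_of_lt_of_le hq ((min_le_left _ _).trans (min_le_right _ _))) hRq
  have hη14 : η ≤ ε / (4 * N) := min_le_right _ _
  -- the core statement for a point `x = z + r e''` of one of the rays
  have core : ∀ (x : ℂ), dist x z < ε / 4 → dist x q = 1 → T x ⊆ {g, s} → x ≠ w →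
      b ∉ Pal U w ∧ b' ∉ Pal U w := by
    intro x hxz hxq hxT hne
    have hε1' : ε ≤ ε1 := min_le_left _ _
    have hε2' : ε ≤ ε2 := (min_le_right _ _).trans (min_le_left _ _)
    have hε3' : ε ≤ 1 := (min_le_right _ _).trans (min_le_right _ _)
    refine key_core h hqw (by rw [dist_comm]; exact hxq) hs hne ?_ hxT ?_ ?_
    · intro hcon
      have h5 : dist x w = 2 := by
        have h6 : x - w = 2 * (q - w) := by linear_combination hcon
        rw [dist_eq_norm, h6, norm_mul, ← dist_eq_norm, hqw]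
        simp
      have h7 := dist_triangle_right x w z
      rw [h5] at h7
      linarith
    · exact (h1 (by linarith)).trans hT
    · refine (h2 ?_).trans hT'
      have h5 : w + x - q - (2 * z - y) = (w - z) + (x - z) - (q - y) := by ring
      rw [dist_eq_norm, h5]
      have h6 := norm_sub_le ((w - z) + (x - z)) (q - y)
      have h7 := norm_add_le (w - z) (x - z)
      rw [dist_eq_norm] at hw' hxz hq'
      linarith
  have small : ∀ (r : ℝ) (e'' : ℂ), ‖e''‖ ≤ N → 0 < r → r < η → dist (z + r * e'') z < ε / 4 := by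
    intro r e'' he hr0 hr
    rw [dist_eq_norm, add_sub_cancel_left, norm_mul, Complex.norm_real, Real.norm_eq_abs,
      abs_of_pos hr0]
    have h5 : r < ε / (4 * N) := lt_of_lt_of_le hr hη14
    have h6 : r * (4 * N) < ε := (lt_div_iff₀ (by positivity)).1 h5
    have h7 : r * ‖e''‖ ≤ r * N := mul_le_mul_of_nonneg_left he hr0.le
    linarith
  by_cases hcase : z + r1 * e = w
  · refine core (z + r2 * e') (small r2 e' ?_ hr20 hr2η) hr2 ?_ ?_
    · rw [hN]; linarith [norm_nonneg e]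
    · exact hη2' ⟨hr20, lt_of_lt_of_le hr2η ((min_le_left _ _).trans (min_le_right _ _))⟩
    · rw [← hcase]
      exact (ne_of_rays hee hr10).symm
  · refine core (z + r1 * e) (small r1 e ?_ hr10 hr1η) hr1 ?_ hcase
    · rw [hN]; linarith [norm_nonneg e']
    · exact hη1' ⟨hr10, lt_of_lt_of_le hr1η ((min_le_left _ _).trans (min_le_left _ _))⟩

/-- **Key lemma**: `y ∈ S(z)`, `T y ⊆ {g, b}`, `T y' ⊆ {g, b'}` at the antipodal point, `T ⊆ {g, s}`
on two rays at `z` on the side of `y`.  A point `w` near `z` with an `s`-partner `q` near `y` such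
that `z` is outside the circle about `q` has neither `b` nor `b'` in its palette. -/
theorem key (h : Irr U T) {z y e e' : ℂ} {g b b' s : Fin k} (hy : dist z y = 1)
    (hT : T y ⊆ {g, b}) (hT' : T (2 * z - y) ⊆ {g, b'}) (hee : cr e e' ≠ 0)
    (he : 0 < ip e (y - z)) (he' : 0 < ip e' (y - z))
    (hW : ∀ᶠ r : ℝ in 𝓝[>] 0, T (z + r * e) ⊆ {g, s})
    (hW' : ∀ᶠ r : ℝ in 𝓝[>] 0, T (z + r * e') ⊆ {g, s}) :
    ∃ δ > 0, ∀ w q, dist w z < δ → dist q y < δ → dist q w = 1 → s ∈ Pal U q → 1 < dist z q →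
      b ∉ Pal U w ∧ b' ∉ Pal U w :=
  key_aux h hT hT' hee (R := fun q => 1 < dist z q) (fun _ hη => ray_hit hy he hη)
    (fun _ hη => ray_hit hy he' hη) hW hW'

/-- **Key lemma**, the rays are on the other side of `z`, and `z` is inside the circle about `q`. -/
theorem key' (h : Irr U T) {z y e e' : ℂ} {g b b' s : Fin k} (hy : dist z y = 1)
    (hT : T y ⊆ {g, b}) (hT' : T (2 * z - y) ⊆ {g, b'}) (hee : cr e e' ≠ 0)
    (he : ip e (y - z) < 0) (he' : ip e' (y - z) < 0)
    (hW : ∀ᶠ r : ℝ in 𝓝[>] 0, T (z + r * e) ⊆ {g, s})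
    (hW' : ∀ᶠ r : ℝ in 𝓝[>] 0, T (z + r * e') ⊆ {g, s}) :
    ∃ δ > 0, ∀ w q, dist w z < δ → dist q y < δ → dist q w = 1 → s ∈ Pal U q → dist z q < 1 →
      b ∉ Pal U w ∧ b' ∉ Pal U w :=
  key_aux h hT hT' hee (R := fun q => dist z q < 1) (fun _ hη => ray_hit' hy he hη)
    (fun _ hη => ray_hit' hy he' hη) hW hW'

end Vale.Agent.P032.H484
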